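import Mathlib

open MeasureTheory Filter Set
open scoped ENNReal

namespace Vale.Agent.P121

variable {Ω : Type*} [MeasurableSpace Ω]

/-- A triple is a contact triple if it is a permutation of `(u, Y s u, Z s u)` with `u ∈ U`. -/
def IsContact (U : Set Ω) (Y Z : Bool → Ω → Ω) (x y z : Ω) : Prop :=
  ∃ u ∈ U, ∃ s, (x = u ∧ y = Y s u ∧ z = Z s u) ∨ (x = u ∧ z = Y s u ∧ y = Z s u) ∨
    (y = u ∧ x = Y s u ∧ z = Z s u) ∨ (y = u ∧ z = Y s u ∧ x = Z s u) ∨
    (z = u ∧ x = Y s u ∧ y = Z s u) ∨ (z = u ∧ y = Y s u ∧ x = Z s u)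

/-- The marginal. -/
noncomputable def mix (α : Measure Ω) (Y Z : Bool → Ω → Ω) : Measure Ω :=
  (6 : ℝ≥0∞)⁻¹ • ((α + α.map (Y true) + α.map (Z true)) +
    (α + α.map (Y false) + α.map (Z false)))

/-- The competitor plan. -/
noncomputable def plan (α : Measure Ω) (Y Z : Bool → Ω → Ω) : Measure (Ω × Ω × Ω) :=
  (6 : ℝ≥0∞)⁻¹ •
    ((α.map (fun x => (x, Y true x, Z true x)) + α.map (fun x => (Y true x, Z true x, x)) +
      α.map (fun x => (Z true x, x, Y true x))) +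
     (α.map (fun x => (x, Y false x, Z false x)) + α.map (fun x => (Y false x, Z false x, x)) +
      α.map (fun x => (Z false x, x, Y false x))))

variable {α : Measure Ω} {Y Z : Bool → Ω → Ω}

lemma six_inv : (6 : ℝ≥0∞)⁻¹ * 6 = 1 := ENNReal.inv_mul_cancel (by norm_num) (by norm_num)

lemma mix_prob [IsProbabilityMeasure α] (hY : ∀ s, Measurable (Y s)) (hZ : ∀ s, Measurable (Z s)) :
    IsProbabilityMeasure (mix α Y Z) := by
  constructor
  simp only [mix, Measure.smul_apply, Measure.add_apply, smul_eq_mul,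
    Measure.map_apply (hY _) MeasurableSet.univ, Measure.map_apply (hZ _) MeasurableSet.univ,
    preimage_univ, measure_univ]
  rw [show ((1 : ℝ≥0∞) + 1 + 1 + (1 + 1 + 1)) = 6 by norm_num]
  exact six_inv

lemma plan_prob [IsProbabilityMeasure α] (hY : ∀ s, Measurable (Y s))
    (hZ : ∀ s, Measurable (Z s)) : IsProbabilityMeasure (plan α Y Z) := by
  have m1 : ∀ s, Measurable (fun x => (x, Y s x, Z s x)) := fun s =>
    measurable_id.prodMk ((hY s).prodMk (hZ s))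
  have m2 : ∀ s, Measurable (fun x => (Y s x, Z s x, x)) := fun s =>
    (hY s).prodMk ((hZ s).prodMk measurable_id)
  have m3 : ∀ s, Measurable (fun x => (Z s x, x, Y s x)) := fun s =>
    (hZ s).prodMk (measurable_id.prodMk (hY s))
  constructor
  simp only [plan, Measure.smul_apply, Measure.add_apply, smul_eq_mul,
    Measure.map_apply (m1 _) MeasurableSet.univ, Measure.map_apply (m2 _) MeasurableSet.univ,
    Measure.map_apply (m3 _) MeasurableSet.univ, preimage_univ, measure_univ]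
  rw [show ((1 : ℝ≥0∞) + 1 + 1 + (1 + 1 + 1)) = 6 by norm_num]
  exact six_inv

lemma plan_fst (hY : ∀ s, Measurable (Y s)) (hZ : ∀ s, Measurable (Z s)) :
    (plan α Y Z).map (fun p => p.1) = mix α Y Z := by
  have m1 : ∀ s, Measurable (fun x => (x, Y s x, Z s x)) := fun s =>
    measurable_id.prodMk ((hY s).prodMk (hZ s))
  have m2 : ∀ s, Measurable (fun x => (Y s x, Z s x, x)) := fun s =>
    (hY s).prodMk ((hZ s).prodMk measurable_id)
  have m3 : ∀ s, Measurable (fun x => (Z s x, x, Y s x)) := fun s =>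
    (hZ s).prodMk (measurable_id.prodMk (hY s))
  have mf : Measurable (fun p : Ω × Ω × Ω => p.1) := measurable_fst
  ext A hA
  simp only [plan, mix, Measure.smul_apply, Measure.add_apply, smul_eq_mul,
    Measure.map_apply mf hA, Measure.map_apply (m1 _) (mf hA), Measure.map_apply (m2 _) (mf hA),
    Measure.map_apply (m3 _) (mf hA), Measure.map_apply (hY _) hA, Measure.map_apply (hZ _) hA,
    ← preimage_comp]
  rfl

lemma plan_snd (hY : ∀ s, Measurable (Y s)) (hZ : ∀ s, Measurable (Z s)) :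
    (plan α Y Z).map (fun p => p.2.1) = mix α Y Z := by
  have m1 : ∀ s, Measurable (fun x => (x, Y s x, Z s x)) := fun s =>
    measurable_id.prodMk ((hY s).prodMk (hZ s))
  have m2 : ∀ s, Measurable (fun x => (Y s x, Z s x, x)) := fun s =>
    (hY s).prodMk ((hZ s).prodMk measurable_id)
  have m3 : ∀ s, Measurable (fun x => (Z s x, x, Y s x)) := fun s =>
    (hZ s).prodMk (measurable_id.prodMk (hY s))
  have mf : Measurable (fun p : Ω × Ω × Ω => p.2.1) := measurable_snd.fst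
  ext A hA
  simp only [plan, mix, Measure.smul_apply, Measure.add_apply, smul_eq_mul,
    Measure.map_apply mf hA, Measure.map_apply (m1 _) (mf hA), Measure.map_apply (m2 _) (mf hA),
    Measure.map_apply (m3 _) (mf hA), Measure.map_apply (hY _) hA, Measure.map_apply (hZ _) hA,
    ← preimage_comp]
  have k1 : ∀ s, (fun p : Ω × Ω × Ω => p.2.1) ∘ (fun x => (x, Y s x, Z s x)) = Y s := fun s => rfl
  have k2 : ∀ s, (fun p : Ω × Ω × Ω => p.2.1) ∘ (fun x => (Y s x, Z s x, x)) = Z s := fun s => rfl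
  have k3 : ∀ s, (fun p : Ω × Ω × Ω => p.2.1) ∘ (fun x => (Z s x, x, Y s x)) = id := fun s => rfl
  simp only [k1, k2, k3, preimage_id]
  congr 1
  ring

lemma plan_thd (hY : ∀ s, Measurable (Y s)) (hZ : ∀ s, Measurable (Z s)) :
    (plan α Y Z).map (fun p => p.2.2) = mix α Y Z := by
  have m1 : ∀ s, Measurable (fun x => (x, Y s x, Z s x)) := fun s =>
    measurable_id.prodMk ((hY s).prodMk (hZ s))
  have m2 : ∀ s, Measurable (fun x => (Y s x, Z s x, x)) := fun s =>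
    (hY s).prodMk ((hZ s).prodMk measurable_id)
  have m3 : ∀ s, Measurable (fun x => (Z s x, x, Y s x)) := fun s =>
    (hZ s).prodMk (measurable_id.prodMk (hY s))
  have mf : Measurable (fun p : Ω × Ω × Ω => p.2.2) := measurable_snd.snd
  ext A hA
  simp only [plan, mix, Measure.smul_apply, Measure.add_apply, smul_eq_mul,
    Measure.map_apply mf hA, Measure.map_apply (m1 _) (mf hA), Measure.map_apply (m2 _) (mf hA),
    Measure.map_apply (m3 _) (mf hA), Measure.map_apply (hY _) hA, Measure.map_apply (hZ _) hA,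
    ← preimage_comp]
  have k1 : ∀ s, (fun p : Ω × Ω × Ω => p.2.2) ∘ (fun x => (x, Y s x, Z s x)) = Z s := fun s => rfl
  have k2 : ∀ s, (fun p : Ω × Ω × Ω => p.2.2) ∘ (fun x => (Y s x, Z s x, x)) = id := fun s => rfl
  have k3 : ∀ s, (fun p : Ω × Ω × Ω => p.2.2) ∘ (fun x => (Z s x, x, Y s x)) = Y s := fun s => rfl
  simp only [k1, k2, k3, preimage_id]
  congr 1
  ring

lemma lintegral_mix (hY : ∀ s, Measurable (Y s)) (hZ : ∀ s, Measurable (Z s)) {f : Ω → ℝ≥0∞}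
    (hf : Measurable f) : ∫⁻ x, f x ∂(mix α Y Z) = (6 : ℝ≥0∞)⁻¹ *
      ((∫⁻ x, f x ∂α + ∫⁻ x, f (Y true x) ∂α + ∫⁻ x, f (Z true x) ∂α) +
       (∫⁻ x, f x ∂α + ∫⁻ x, f (Y false x) ∂α + ∫⁻ x, f (Z false x) ∂α)) := by
  simp only [mix, lintegral_smul_measure, lintegral_add_measure, lintegral_map hf (hY _),
    lintegral_map hf (hZ _), smul_eq_mul]

/-- The cost of the competitor plan is three times the integral of the potential. -/
lemma plan_cost (c : Ω → Ω → Ω → ℝ≥0∞) (hc : Measurable (fun p : Ω × Ω × Ω => c p.1 p.2.1 p.2.2))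
    (cyc : ∀ x y z, c x y z = c y z x) (U : Set Ω) (hαU : ∀ᵐ x ∂α, x ∈ U)
    (hY : ∀ s, Measurable (Y s)) (hZ : ∀ s, Measurable (Z s))
    (φ : Ω → ℝ≥0∞) (hφ : Measurable φ)
    (contact : ∀ u ∈ U, ∀ s, c u (Y s u) (Z s u) = φ u + φ (Y s u) + φ (Z s u)) :
    ∫⁻ p, c p.1 p.2.1 p.2.2 ∂(plan α Y Z) = 3 * ∫⁻ x, φ x ∂(mix α Y Z) := by
  have m1 : ∀ s, Measurable (fun x => (x, Y s x, Z s x)) := fun s =>
    measurable_id.prodMk ((hY s).prodMk (hZ s))
  have m2 : ∀ s, Measurable (fun x => (Y s x, Z s x, x)) := fun s =>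
    (hY s).prodMk ((hZ s).prodMk measurable_id)
  have m3 : ∀ s, Measurable (fun x => (Z s x, x, Y s x)) := fun s =>
    (hZ s).prodMk (measurable_id.prodMk (hY s))
  have key : ∀ s, ∫⁻ x, c x (Y s x) (Z s x) ∂α =
      ∫⁻ x, φ x ∂α + ∫⁻ x, φ (Y s x) ∂α + ∫⁻ x, φ (Z s x) ∂α := by
    intro s
    have hm : Measurable (fun x => φ x + φ (Y s x)) := hφ.add (hφ.comp (hY s))
    rw [← lintegral_add_left hφ, ← lintegral_add_left hm]
    apply lintegral_congr_ae
    filter_upwards [hαU] with x hx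
    exact contact x hx s
  have e1 : ∀ s x, c (Y s x) (Z s x) x = c x (Y s x) (Z s x) := fun s x => (cyc _ _ _).symm
  have e2 : ∀ s x, c (Z s x) x (Y s x) = c x (Y s x) (Z s x) := fun s x => cyc _ _ _
  rw [lintegral_mix hY hZ hφ]
  simp only [plan, lintegral_smul_measure, lintegral_add_measure, lintegral_map hc (m1 _),
    lintegral_map hc (m2 _), lintegral_map hc (m3 _), smul_eq_mul, e1, e2, key]
  ring

section counting

variable (U : Set Ω) (E : Set Ω) (hEU : E ⊆ U)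
  (injY : ∀ s, InjOn (Y s) U) (injZ : ∀ s, InjOn (Z s) U)
  (dYU : ∀ s, ∀ u ∈ U, Y s u ∉ U) (dZU : ∀ s, ∀ u ∈ U, Z s u ∉ U)
  (dYZ : ∀ s t, ∀ u ∈ U, ∀ v ∈ U, Y s u ≠ Z t v)
  (dYY : ∀ u ∈ U, ∀ v ∈ U, Y true u ≠ Y false v)
  (dZZ : ∀ u ∈ U, ∀ v ∈ U, Z true u ≠ Z false v)

include hEU injY injZ dYU dZU dYZ dYY dZZ in
omit [MeasurableSpace Ω] in
lemma count (p a b : Ω) (h : IsContact U Y Z p a b) :
    (Y true '' E).indicator (1 : Ω → ℝ≥0∞) p + (Y true '' E).indicator 1 a +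
      (Y true '' E).indicator 1 b =
    (Y true '' E).indicator 1 p + (Z true '' E).indicator 1 p +
      (E.indicator 1 p) * ((Y true '' U ∪ Z true '' U).indicator 1 a) := by
  have a1 : ∀ u ∈ U, u ∉ Y true '' E := by
    rintro u hu ⟨v, hv, rfl⟩; exact dYU _ v (hEU hv) hu
  have a2 : ∀ u ∈ U, u ∉ Z true '' E := by
    rintro u hu ⟨v, hv, rfl⟩; exact dZU _ v (hEU hv) hu
  have a3 : ∀ u ∈ U, (Y true u ∈ Y true '' E ↔ u ∈ E) := by
    intro u hu
    constructor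
    · rintro ⟨v, hv, hvu⟩
      rw [← injY true (hEU hv) hu hvu]; exact hv
    · intro h; exact ⟨u, h, rfl⟩
  have a4 : ∀ u ∈ U, (Z true u ∈ Z true '' E ↔ u ∈ E) := by
    intro u hu
    constructor
    · rintro ⟨v, hv, hvu⟩
      rw [← injZ true (hEU hv) hu hvu]; exact hv
    · intro h; exact ⟨u, h, rfl⟩
  have a5 : ∀ u ∈ U, Y true u ∉ Z true '' E := by
    rintro u hu ⟨v, hv, h⟩; exact dYZ _ _ u hu v (hEU hv) h.symm
  have a6 : ∀ u ∈ U, Z true u ∉ Y true '' E := by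
    rintro u hu ⟨v, hv, h⟩; exact dYZ _ _ v (hEU hv) u hu h
  have a7 : ∀ s, ∀ u ∈ U, Y s u ∉ E := fun s u hu h => dYU s u hu (hEU h)
  have a8 : ∀ s, ∀ u ∈ U, Z s u ∉ E := fun s u hu h => dZU s u hu (hEU h)
  have b1 : ∀ u ∈ U, Y false u ∉ Y true '' E := by
    rintro u hu ⟨v, hv, h⟩; exact dYY v (hEU hv) u hu h
  have b2 : ∀ u ∈ U, Y false u ∉ Z true '' E := by
    rintro u hu ⟨v, hv, h⟩; exact dYZ _ _ u hu v (hEU hv) h.symm
  have b3 : ∀ u ∈ U, Z false u ∉ Y true '' E := by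
    rintro u hu ⟨v, hv, h⟩; exact dYZ _ _ v (hEU hv) u hu h
  have b4 : ∀ u ∈ U, Z false u ∉ Z true '' E := by
    rintro u hu ⟨v, hv, h⟩; exact dZZ v (hEU hv) u hu h
  have c1 : ∀ u ∈ U, Y true u ∈ Y true '' U ∪ Z true '' U := fun u hu =>
    Or.inl ⟨u, hu, rfl⟩
  have c2 : ∀ u ∈ U, Z true u ∈ Y true '' U ∪ Z true '' U := fun u hu =>
    Or.inr ⟨u, hu, rfl⟩
  have c3 : ∀ u ∈ U, Y false u ∉ Y true '' U ∪ Z true '' U := by
    rintro u hu (⟨v, hv, h⟩ | ⟨v, hv, h⟩)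
    · exact dYY v hv u hu h
    · exact dYZ _ _ u hu v hv h.symm
  have c4 : ∀ u ∈ U, Z false u ∉ Y true '' U ∪ Z true '' U := by
    rintro u hu (⟨v, hv, h⟩ | ⟨v, hv, h⟩)
    · exact dYZ _ _ v hv u hu h
    · exact dZZ v hv u hu h
  obtain ⟨u, hu, s, h⟩ := h
  by_cases huE : u ∈ E
  · rcases h with h | h | h | h | h | h <;> obtain ⟨rfl, rfl, rfl⟩ := h <;> cases s <;>
      simp only [Set.indicator, a1 _ hu, a2 _ hu, a3 _ hu, a4 _ hu, a5 _ hu, a6 _ hu, a7 _ _ hu,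
        a8 _ _ hu, b1 _ hu, b2 _ hu, b3 _ hu, b4 _ hu, c1 _ hu, c2 _ hu, c3 _ hu, c4 _ hu, huE,
        if_true, if_false, Pi.one_apply, add_zero, zero_add, mul_zero, mul_one, zero_mul]
  · rcases h with h | h | h | h | h | h <;> obtain ⟨rfl, rfl, rfl⟩ := h <;> cases s <;>
      simp only [Set.indicator, a1 _ hu, a2 _ hu, a3 _ hu, a4 _ hu, a5 _ hu, a6 _ hu, a7 _ _ hu,
        a8 _ _ hu, b1 _ hu, b2 _ hu, b3 _ hu, b4 _ hu, c1 _ hu, c2 _ hu, c3 _ hu, c4 _ hu, huE,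
        if_true, if_false, Pi.one_apply, add_zero, zero_add, mul_zero, mul_one, zero_mul]

end counting

/-- No Monge plan is as good as the competitor plan. -/
theorem no_monge (c : Ω → Ω → Ω → ℝ≥0∞)
    (hc : Measurable (fun p : Ω × Ω × Ω => c p.1 p.2.1 p.2.2))
    (α : Measure Ω) [IsProbabilityMeasure α] (U : Set Ω) (hU : MeasurableSet U)
    (hαU : ∀ᵐ x ∂α, x ∈ U)
    (Y Z : Bool → Ω → Ω) (hY : ∀ s, Measurable (Y s)) (hZ : ∀ s, Measurable (Z s))
    (imY : ∀ s E, E ⊆ U → MeasurableSet E → MeasurableSet (Y s '' E))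
    (imZ : ∀ s E, E ⊆ U → MeasurableSet E → MeasurableSet (Z s '' E))
    (injY : ∀ s, InjOn (Y s) U) (injZ : ∀ s, InjOn (Z s) U)
    (dYU : ∀ s, ∀ u ∈ U, Y s u ∉ U) (dZU : ∀ s, ∀ u ∈ U, Z s u ∉ U)
    (dYZ : ∀ s t, ∀ u ∈ U, ∀ v ∈ U, Y s u ≠ Z t v)
    (dYY : ∀ u ∈ U, ∀ v ∈ U, Y true u ≠ Y false v)
    (dZZ : ∀ u ∈ U, ∀ v ∈ U, Z true u ≠ Z false v)
    (φ : Ω → ℝ≥0∞) (hφ : Measurable φ) (C : ℝ≥0∞) (hC : C ≠ ∞) (hφC : ∀ x, φ x ≤ C)
    (S : Set Ω) (hUS : U ⊆ S) (hYS : ∀ s, ∀ u ∈ U, Y s u ∈ S) (hZS : ∀ s, ∀ u ∈ U, Z s u ∈ S)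
    (hS : MeasurableSet S)
    (ineq : ∀ x ∈ S, ∀ y ∈ S, ∀ z ∈ S, φ x + φ y + φ z ≤ c x y z)
    (eqcase : ∀ x ∈ S, ∀ y ∈ S, ∀ z ∈ S, c x y z = φ x + φ y + φ z → IsContact U Y Z x y z)
    (T₂ T₃ : Ω → Ω) (hT₂ : Measurable T₂) (hT₃ : Measurable T₃)
    (p₂ : (mix α Y Z).map T₂ = mix α Y Z) (p₃ : (mix α Y Z).map T₃ = mix α Y Z) :
    3 * ∫⁻ x, φ x ∂(mix α Y Z) < ∫⁻ x, c x (T₂ x) (T₃ x) ∂(mix α Y Z) := by
  by_contra hcon
  rw [not_lt] at hcon
  set μ := mix α Y Z with hμ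
  have : IsProbabilityMeasure μ := mix_prob hY hZ
  -- almost everywhere in `S`
  have aeS : ∀ᵐ x ∂μ, x ∈ S := by
    have h0 : ∀ᵐ x ∂α, x ∈ S := by
      filter_upwards [hαU] with x hx using hUS hx
    have h1 : ∀ s, ∀ᵐ x ∂(α.map (Y s)), x ∈ S := by
      intro s
      refine (ae_map_iff (p := fun x => x ∈ S) (hY s).aemeasurable hS).2 ?_
      filter_upwards [hαU] with x hx using hYS s x hx
    have h2 : ∀ s, ∀ᵐ x ∂(α.map (Z s)), x ∈ S := by
      intro s
      refine (ae_map_iff (p := fun x => x ∈ S) (hZ s).aemeasurable hS).2 ?_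
      filter_upwards [hαU] with x hx using hZS s x hx
    rw [hμ, mix]
    apply Measure.ae_smul_measure
    simp only [ae_add_measure_iff]
    exact ⟨⟨⟨h0, h1 _⟩, h2 _⟩, ⟨⟨h0, h1 _⟩, h2 _⟩⟩
  have aeS₂ : ∀ᵐ x ∂μ, T₂ x ∈ S := by
    apply ae_of_ae_map hT₂.aemeasurable
    rw [p₂]; exact aeS
  have aeS₃ : ∀ᵐ x ∂μ, T₃ x ∈ S := by
    apply ae_of_ae_map hT₃.aemeasurable
    rw [p₃]; exact aeS
  have mc : Measurable (fun x => c x (T₂ x) (T₃ x)) :=
    hc.comp (measurable_id.prodMk (hT₂.prodMk hT₃))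
  have t₂ : ∫⁻ x, φ (T₂ x) ∂μ = ∫⁻ x, φ x ∂μ := by
    rw [← lintegral_map hφ hT₂, p₂]
  have t₃ : ∫⁻ x, φ (T₃ x) ∂μ = ∫⁻ x, φ x ∂μ := by
    rw [← lintegral_map hφ hT₃, p₃]
  have tot : ∫⁻ x, (φ x + φ (T₂ x) + φ (T₃ x)) ∂μ = 3 * ∫⁻ x, φ x ∂μ := by
    have m3 : Measurable (fun x => φ (T₃ x)) := hφ.comp hT₃
    have m2 : Measurable (fun x => φ (T₂ x)) := hφ.comp hT₂
    rw [lintegral_add_right _ m3, lintegral_add_right _ m2, t₂, t₃]
    ring
  have fin : ∫⁻ x, φ x ∂μ ≠ ∞ := by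
    apply ne_top_of_le_ne_top hC
    calc ∫⁻ x, φ x ∂μ ≤ ∫⁻ _, C ∂μ := lintegral_mono hφC
      _ = C := by simp
  have aeeq : (fun x => φ x + φ (T₂ x) + φ (T₃ x)) =ᵐ[μ] (fun x => c x (T₂ x) (T₃ x)) := by
    apply ae_eq_of_ae_le_of_lintegral_le
    · filter_upwards [aeS, aeS₂, aeS₃] with x h1 h2 h3 using ineq _ h1 _ h2 _ h3
    · rw [tot]; exact ENNReal.mul_ne_top (by norm_num) fin
    · exact mc.aemeasurable
    · rw [tot]; exact hcon
  have aecon : ∀ᵐ x ∂μ, IsContact U Y Z x (T₂ x) (T₃ x) := by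
    filter_upwards [aeS, aeS₂, aeS₃, aeeq] with x h1 h2 h3 h4 using eqcase _ h1 _ h2 _ h3 h4.symm
  -- measures of special sets
  have hαU' : α Uᶜ = 0 := hαU
  have null_of : ∀ A : Set Ω, (∀ u ∈ U, u ∉ A) → α A = 0 := by
    intro A hA
    refine measure_mono_null (fun x hx => ?_) hαU'
    exact fun hxU => hA x hxU hx
  have eq_of : ∀ A E : Set Ω, (∀ u ∈ U, (u ∈ A ↔ u ∈ E)) → α A = α E := by
    intro A E hA
    apply measure_congr
    filter_upwards [hαU] with x hx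
    exact propext (hA x hx)
  have μY : ∀ E : Set Ω, E ⊆ U → MeasurableSet E → μ (Y true '' E) = (6 : ℝ≥0∞)⁻¹ * α E := by
    intro E hEU hE
    have hm := imY true E hEU hE
    simp only [hμ, mix, Measure.smul_apply, Measure.add_apply, smul_eq_mul,
      Measure.map_apply (hY _) hm, Measure.map_apply (hZ _) hm]
    rw [null_of (Y true '' E) (by rintro u hu ⟨v, hv, rfl⟩; exact dYU _ v (hEU hv) hu),
      eq_of (Y true ⁻¹' (Y true '' E)) E (by
        intro u hu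
        constructor
        · rintro ⟨v, hv, hvu⟩
          rw [← injY true (hEU hv) hu hvu]; exact hv
        · intro h; exact ⟨u, h, rfl⟩),
      null_of (Z true ⁻¹' (Y true '' E)) (by
        rintro u hu ⟨v, hv, h⟩; exact dYZ _ _ v (hEU hv) u hu h),
      null_of (Y false ⁻¹' (Y true '' E)) (by
        rintro u hu ⟨v, hv, h⟩; exact dYY v (hEU hv) u hu h),
      null_of (Z false ⁻¹' (Y true '' E)) (by
        rintro u hu ⟨v, hv, h⟩; exact dYZ _ _ v (hEU hv) u hu h)]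
    simp
  have μZ : ∀ E : Set Ω, E ⊆ U → MeasurableSet E → μ (Z true '' E) = (6 : ℝ≥0∞)⁻¹ * α E := by
    intro E hEU hE
    have hm := imZ true E hEU hE
    simp only [hμ, mix, Measure.smul_apply, Measure.add_apply, smul_eq_mul,
      Measure.map_apply (hY _) hm, Measure.map_apply (hZ _) hm]
    rw [null_of (Z true '' E) (by rintro u hu ⟨v, hv, rfl⟩; exact dZU _ v (hEU hv) hu),
      eq_of (Z true ⁻¹' (Z true '' E)) E (by
        intro u hu
        constructor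
        · rintro ⟨v, hv, hvu⟩
          rw [← injZ true (hEU hv) hu hvu]; exact hv
        · intro h; exact ⟨u, h, rfl⟩),
      null_of (Y true ⁻¹' (Z true '' E)) (by
        rintro u hu ⟨v, hv, h⟩; exact dYZ _ _ u hu v (hEU hv) h.symm),
      null_of (Y false ⁻¹' (Z true '' E)) (by
        rintro u hu ⟨v, hv, h⟩; exact dYZ _ _ u hu v (hEU hv) h.symm),
      null_of (Z false ⁻¹' (Z true '' E)) (by
        rintro u hu ⟨v, hv, h⟩; exact dZZ v (hEU hv) u hu h)]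
    simp
  have μU : ∀ E : Set Ω, E ⊆ U → MeasurableSet E → μ E = (6 : ℝ≥0∞)⁻¹ * (α E + α E) := by
    intro E hEU hE
    simp only [hμ, mix, Measure.smul_apply, Measure.add_apply, smul_eq_mul,
      Measure.map_apply (hY _) hE, Measure.map_apply (hZ _) hE]
    rw [null_of (Y true ⁻¹' E) (fun u hu h => dYU _ u hu (hEU h)),
      null_of (Z true ⁻¹' E) (fun u hu h => dZU _ u hu (hEU h)),
      null_of (Y false ⁻¹' E) (fun u hu h => dYU _ u hu (hEU h)),
      null_of (Z false ⁻¹' E) (fun u hu h => dZU _ u hu (hEU h))]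
    simp
  set D : Set Ω := Y true '' U ∪ Z true '' U with hD
  have mD : MeasurableSet D :=
    (imY true U Subset.rfl hU).union (imZ true U Subset.rfl hU)
  have main : ∀ E : Set Ω, E ⊆ U → MeasurableSet E →
      α E = α (E ∩ T₂ ⁻¹' D) + α (E ∩ T₂ ⁻¹' D) := by
    intro E hEU hE
    have mB := imY true E hEU hE
    have mZE := imZ true E hEU hE
    have mED : MeasurableSet (E ∩ T₂ ⁻¹' D) := hE.inter (hT₂ mD)
    have h1 : ∫⁻ x, ((Y true '' E).indicator (1 : Ω → ℝ≥0∞) x +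
        (Y true '' E).indicator 1 (T₂ x) + (Y true '' E).indicator 1 (T₃ x)) ∂μ =
        μ (Y true '' E) + μ (Y true '' E) + μ (Y true '' E) := by
      have mi : Measurable ((Y true '' E).indicator (1 : Ω → ℝ≥0∞)) :=
        measurable_one.indicator mB
      have m3 : Measurable (fun x => (Y true '' E).indicator (1 : Ω → ℝ≥0∞) (T₃ x)) :=
        mi.comp hT₃
      have m2 : Measurable (fun x => (Y true '' E).indicator (1 : Ω → ℝ≥0∞) (T₂ x)) :=
        mi.comp hT₂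
      rw [lintegral_add_right _ m3, lintegral_add_right _ m2]
      have r2 : ∫⁻ x, (Y true '' E).indicator (1 : Ω → ℝ≥0∞) (T₂ x) ∂μ = μ (Y true '' E) := by
        rw [← lintegral_map mi hT₂, p₂, lintegral_indicator_one mB]
      have r3 : ∫⁻ x, (Y true '' E).indicator (1 : Ω → ℝ≥0∞) (T₃ x) ∂μ = μ (Y true '' E) := by
        rw [← lintegral_map mi hT₃, p₃, lintegral_indicator_one mB]
      rw [r2, r3, lintegral_indicator_one mB]
    have h2 : ∫⁻ x, ((Y true '' E).indicator (1 : Ω → ℝ≥0∞) x +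
        (Z true '' E).indicator 1 x + (E ∩ T₂ ⁻¹' D).indicator 1 x) ∂μ =
        μ (Y true '' E) + μ (Z true '' E) + μ (E ∩ T₂ ⁻¹' D) := by
      rw [lintegral_add_right _ (measurable_one.indicator mED),
        lintegral_add_right _ (measurable_one.indicator mZE), lintegral_indicator_one mB,
        lintegral_indicator_one mZE, lintegral_indicator_one mED]
    have h3 : μ (Y true '' E) + μ (Y true '' E) + μ (Y true '' E) =
        μ (Y true '' E) + μ (Z true '' E) + μ (E ∩ T₂ ⁻¹' D) := by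
      rw [← h1, ← h2]
      apply lintegral_congr_ae
      filter_upwards [aecon] with x hx
      have := count U E hEU injY injZ dYU dZU dYZ dYY dZZ x (T₂ x) (T₃ x) hx
      rw [this]
      congr 1
      by_cases hxE : x ∈ E <;> by_cases hxD : T₂ x ∈ D <;>
        simp [Set.indicator, hxE, hxD, ← hD]
    rw [μY E hEU hE, μZ E hEU hE, μU _ (inter_subset_left.trans hEU) mED] at h3
    rw [← mul_add, ← mul_add, ← mul_add] at h3
    have h4 : α E + α E + α E = α E + α E + (α (E ∩ T₂ ⁻¹' D) + α (E ∩ T₂ ⁻¹' D)) := by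
      have := congrArg (fun t => (6 : ℝ≥0∞) * t) h3
      simp only [← mul_assoc] at this
      rw [mul_comm (6 : ℝ≥0∞) (6 : ℝ≥0∞)⁻¹, six_inv, one_mul, one_mul] at this
      exact this
    exact (ENNReal.add_right_inj (by finiteness)).mp h4
  have mA : MeasurableSet (U ∩ T₂ ⁻¹' D) := hU.inter (hT₂ mD)
  have k1 := main (U ∩ T₂ ⁻¹' D) inter_subset_left mA
  have k2 := main U Subset.rfl hU
  rw [inter_assoc, inter_self] at k1
  have k3 : α (U ∩ T₂ ⁻¹' D) = 0 := by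
    have hfin : α (U ∩ T₂ ⁻¹' D) ≠ ∞ := by finiteness
    have : α (U ∩ T₂ ⁻¹' D) + 0 = α (U ∩ T₂ ⁻¹' D) + α (U ∩ T₂ ⁻¹' D) := by rw [add_zero]; exact k1
    exact ((ENNReal.add_right_inj hfin).mp this).symm
  rw [k3, add_zero] at k2
  have k4 : α univ = 0 := by
    rw [← union_compl_self U]
    exact measure_union_null k2 hαU'
  rw [measure_univ] at k4
  exact one_ne_zero k4

end Vale.Agent.P121
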