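import Mathlib

open MeasureTheory
open scoped ENNReal

namespace Vale.Agent.P121

/-- Three-dimensional Euclidean space. -/
abbrev E3 : Type := EuclideanSpace ℝ (Fin 3)

/-- The first basis vector. -/
noncomputable def e₁ : E3 := EuclideanSpace.single 0 1

lemma norm_e₁ : ‖e₁‖ = 1 := by
  simp [e₁]

lemma inner_e₁_e₁ : inner ℝ e₁ e₁ = (1 : ℝ) := by
  rw [real_inner_self_eq_norm_sq, norm_e₁]; norm_num

/-- The Coulomb field `v / ‖v‖ ^ 3`. -/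
noncomputable def q (v : E3) : E3 := (‖v‖⁻¹ ^ 3) • v

/-- Semiconvexity of the Coulomb potential. -/
lemma semiconvex (v w : E3) (hv : 0 < ‖v‖) (hw : 0 < ‖w‖) :
    ‖v‖⁻¹ - inner ℝ (q v) (w - v) - ‖w - v‖ ^ 2 * (‖v‖⁻¹ ^ 3 / 2) ≤ ‖w‖⁻¹ := by
  have h1 : inner ℝ (q v) (w - v) = ‖v‖⁻¹ ^ 3 * (inner ℝ v w - ‖v‖ ^ 2) := by
    rw [q, inner_smul_left, inner_sub_right, real_inner_self_eq_norm_sq]
    simp
  have h2 : ‖w - v‖ ^ 2 = ‖w‖ ^ 2 - 2 * inner ℝ v w + ‖v‖ ^ 2 := by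
    rw [norm_sub_sq_real, real_inner_comm]
  rw [h1, h2]
  set s := ‖v‖
  set t := ‖w‖
  set i : ℝ := inner ℝ v w
  have hs : s ≠ 0 := hv.ne'
  have ht : t ≠ 0 := hw.ne'
  have key : t⁻¹ - (s⁻¹ - s⁻¹ ^ 3 * (i - s ^ 2) - (t ^ 2 - 2 * i + s ^ 2) * (s⁻¹ ^ 3 / 2))
      = (s - t) ^ 2 * (2 * s + t) / (2 * s ^ 3 * t) := by
    field_simp
    ring
  have : 0 ≤ (s - t) ^ 2 * (2 * s + t) / (2 * s ^ 3 * t) := by positivity
  linarith

/-- Real-valued Coulomb cost. -/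
noncomputable def cR (x y z : E3) : ℝ := ‖x - y‖⁻¹ + ‖x - z‖⁻¹ + ‖y - z‖⁻¹

/-- The potential near the origin. -/
noncomputable def φA (x : E3) : ℝ := 13 / 10 - 3 * ‖x‖ ^ 2

/-- The potential near `-e₁`. -/
noncomputable def φC (z : E3) : ℝ :=
  6 / 10 + 5 / 4 * inner ℝ e₁ (z + e₁) - 3 * ‖z + e₁‖ ^ 2

/-- The first-order condition in the first variable. -/
noncomputable def Φ1 (x y z : E3) : E3 := q (x - y) + q (x - z) - (6 : ℝ) • x

/-- The first-order condition in the third variable. -/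
noncomputable def Φ3 (x y z : E3) : E3 :=
  q (x - z) + q (y - z) - (5 / 4 : ℝ) • e₁ + (6 : ℝ) • (z + e₁)

lemma inv_cube_le {r : ℝ} (hr : 99 / 100 ≤ r) : r⁻¹ ^ 3 ≤ 11 / 10 := by
  have h0 : (0 : ℝ) < r := by linarith
  have h1 : r⁻¹ ≤ 100 / 99 := by
    rw [inv_le_comm₀ h0 (by norm_num)]
    norm_num
    linarith
  have h2 : 0 ≤ r⁻¹ := by positivity
  calc r⁻¹ ^ 3 ≤ (100 / 99) ^ 3 := by gcongr
    _ ≤ 11 / 10 := by norm_num

/-- The key inequality: quantitative optimality of a contact triple in two of its variables. -/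
lemma key_ineq (x y z x' z' : E3) (h1 : Φ1 x y z = 0) (h3 : Φ3 x y z = 0)
    (hxy : 99 / 100 ≤ ‖x - y‖) (hxz : 99 / 100 ≤ ‖x - z‖) (hyz : 99 / 100 ≤ ‖y - z‖)
    (hxy' : 0 < ‖x' - y‖) (hxz' : 0 < ‖x' - z'‖) (hyz' : 0 < ‖y - z'‖) :
    φA x' + (cR x y z - φA x - φC z) + φC z' + (‖x' - x‖ ^ 2 + ‖z' - z‖ ^ 2) ≤ cR x' y z' := by
  have s1 := semiconvex (x - y) (x' - y) (by linarith) hxy'
  have s2 := semiconvex (x - z) (x' - z') (by linarith) hxz'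
  have s3 := semiconvex (y - z) (y - z') (by linarith) hyz'
  have c1 := inv_cube_le hxy
  have c2 := inv_cube_le hxz
  have c3 := inv_cube_le hyz
  have d1 : x' - y - (x - y) = x' - x := by abel
  have d2 : x' - z' - (x - z) = (x' - x) - (z' - z) := by abel
  have d3 : y - z' - (y - z) = -(z' - z) := by abel
  rw [d1] at s1
  rw [d2] at s2
  rw [d3, norm_neg, inner_neg_right] at s3
  set a := x' - x with ha
  set b := z' - z with hb
  have hx' : x' = x + a := by rw [ha]; abel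
  have hz' : z' = z + b := by rw [hb]; abel
  have n1 : ‖x'‖ ^ 2 = ‖x‖ ^ 2 + 2 * inner ℝ x a + ‖a‖ ^ 2 := by
    rw [hx', norm_add_sq_real]
  have n2 : ‖z' + e₁‖ ^ 2 = ‖z + e₁‖ ^ 2 + 2 * inner ℝ (z + e₁) b + ‖b‖ ^ 2 := by
    have : z' + e₁ = (z + e₁) + b := by rw [hz']; abel
    rw [this, norm_add_sq_real]
  have n3 : inner ℝ e₁ (z' + e₁) = inner ℝ e₁ (z + e₁) + inner ℝ e₁ b := by
    have : z' + e₁ = (z + e₁) + b := by rw [hz']; abel
    rw [this, inner_add_right]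
  have l1 : inner ℝ (q (x - y)) a + inner ℝ (q (x - z)) a - 6 * inner ℝ x a = 0 := by
    have := congrArg (fun w => inner ℝ w a) h1
    simp only [Φ1, inner_sub_left, inner_add_left, inner_smul_left, inner_zero_left] at this
    simpa using this
  have l3 : inner ℝ (q (x - z)) b + inner ℝ (q (y - z)) b - 5 / 4 * inner ℝ e₁ b
      + 6 * inner ℝ (z + e₁) b = 0 := by
    have := congrArg (fun w => inner ℝ w b) h3
    simp only [Φ3, inner_sub_left, inner_add_left (𝕜 := ℝ), inner_smul_left,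
      inner_zero_left] at this
    simp only [inner_add_left]
    simpa using this
  have par : ‖a - b‖ ^ 2 ≤ 2 * ‖a‖ ^ 2 + 2 * ‖b‖ ^ 2 := by
    have := parallelogram_law_with_norm ℝ a b
    have h := sq_nonneg ‖a + b‖
    nlinarith
  rw [inner_sub_right] at s2
  have p0 : 0 ≤ ‖a‖ ^ 2 := by positivity
  have p1 : 0 ≤ ‖b‖ ^ 2 := by positivity
  have q1 : ‖a‖ ^ 2 * (‖x - y‖⁻¹ ^ 3 / 2) ≤ ‖a‖ ^ 2 * (11 / 20) := by
    apply mul_le_mul_of_nonneg_left _ p0; linarith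
  have q2 : ‖a - b‖ ^ 2 * (‖x - z‖⁻¹ ^ 3 / 2) ≤ (2 * ‖a‖ ^ 2 + 2 * ‖b‖ ^ 2) * (11 / 20) := by
    have : 0 ≤ ‖x - z‖⁻¹ ^ 3 / 2 := by positivity
    apply mul_le_mul par (by linarith) this (by positivity)
  have q3 : ‖b‖ ^ 2 * (‖y - z‖⁻¹ ^ 3 / 2) ≤ ‖b‖ ^ 2 * (11 / 20) := by
    apply mul_le_mul_of_nonneg_left _ p1; linarith
  simp only [φA, φC, cR, n1, n2, n3]
  linarith

end Vale.Agent.P121
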