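import Mathlib

open MeasureTheory
open scoped ENNReal

namespace Vale.Agent.P121

/-- The Coulomb cost of three points of `ℝ³`; it is `∞` when two of the points coincide. -/
noncomputable def coulomb (x y z : EuclideanSpace ℝ (Fin 3)) : ℝ≥0∞ :=
  (edist x y)⁻¹ + (edist x z)⁻¹ + (edist y z)⁻¹

/-- `π ∈ Π(μ, μ, μ)`: a Borel probability measure on `(ℝ³)³` whose three marginals equal `μ`. -/
def IsTransportPlan (μ : Measure (EuclideanSpace ℝ (Fin 3)))
    (π : Measure (EuclideanSpace ℝ (Fin 3) × EuclideanSpace ℝ (Fin 3) ×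
      EuclideanSpace ℝ (Fin 3))) : Prop :=
  IsProbabilityMeasure π ∧ π.map (fun p => p.1) = μ ∧ π.map (fun p => p.2.1) = μ ∧
    π.map (fun p => p.2.2) = μ

/-- The Kantorovich value of the three-marginal Coulomb problem. -/
noncomputable def kantorovichValue (μ : Measure (EuclideanSpace ℝ (Fin 3))) : ℝ≥0∞ :=
  sInf {v | ∃ π, IsTransportPlan μ π ∧ v = ∫⁻ p, coulomb p.1 p.2.1 p.2.2 ∂π}

/-- `(Id, T₂, T₃)_# μ` is an optimal Monge plan: `T₂`, `T₃` are Borel maps preserving `μ` whose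
cost is the Kantorovich value. -/
def IsOptimalMonge (μ : Measure (EuclideanSpace ℝ (Fin 3)))
    (T₂ T₃ : EuclideanSpace ℝ (Fin 3) → EuclideanSpace ℝ (Fin 3)) : Prop :=
  Measurable T₂ ∧ Measurable T₃ ∧ μ.map T₂ = μ ∧ μ.map T₃ = μ ∧
    ∫⁻ x, coulomb x (T₂ x) (T₃ x) ∂μ = kantorovichValue μ

end Vale.Agent.P121
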