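import Vale.Agent.P121.Local
import Vale.Agent.P121.Abstract
import Vale.Agent.P121.Defs

open MeasureTheory Filter Set
open scoped ENNReal

namespace Vale.Agent.P121

/-- The output of the local analysis. -/
structure LD where
  ε : ℝ
  Y : E3 → E3
  Z : E3 → E3
  G : E3 → E3
  H : E3 → E3
  ε_pos : 0 < ε
  ε_le : ε ≤ 1 / 1000
  contY : ContinuousOn Y (Metric.ball 0 ε)
  contZ : ContinuousOn Z (Metric.ball 0 ε)
  diffG : DifferentiableOn ℝ G (Y '' Metric.ball 0 ε)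
  diffH : DifferentiableOn ℝ H (Z '' Metric.ball 0 ε)
  nearY : ∀ x ∈ Metric.ball (0 : E3) ε, ‖Y x - e₁‖ ≤ 1 / 1000
  nearZ : ∀ x ∈ Metric.ball (0 : E3) ε, ‖Z x + e₁‖ ≤ 1 / 1000
  eq1 : ∀ x ∈ Metric.ball (0 : E3) ε, Φ1 x (Y x) (Z x) = 0
  eq3 : ∀ x ∈ Metric.ball (0 : E3) ε, Φ3 x (Y x) (Z x) = 0
  GY : ∀ x ∈ Metric.ball (0 : E3) ε, G (Y x) = x
  HZ : ∀ x ∈ Metric.ball (0 : E3) ε, H (Z x) = x
  near : ∀ x ∈ Metric.ball (0 : E3) ε,
    |cR x (Y x) (Z x) - φA x - φC (Z x) - 6 / 10| ≤ 1 / 100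

lemma nonempty_LD : Nonempty LD := by
  obtain ⟨ε, Y, Z, G, H, h1, h2, h3, h4, h5, h6, h7⟩ := exists_local
  exact ⟨⟨ε, Y, Z, G, H, h1, h2, h3, h4, h5, h6, fun x hx => (h7 x hx).1,
    fun x hx => (h7 x hx).2.1, fun x hx => (h7 x hx).2.2.1, fun x hx => (h7 x hx).2.2.2.1,
    fun x hx => (h7 x hx).2.2.2.2.1, fun x hx => (h7 x hx).2.2.2.2.2.1,
    fun x hx => (h7 x hx).2.2.2.2.2.2⟩⟩

/-- The isometry swapping the first two coordinates. -/
noncomputable def R : E3 ≃ₗᵢ[ℝ] E3 :=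
  LinearIsometryEquiv.piLpCongrLeft 2 ℝ ℝ (Equiv.swap (0 : Fin 3) 1)

lemma R_R (x : E3) : R (R x) = x := by
  ext i
  simp [R, LinearIsometryEquiv.piLpCongrLeft_apply, Equiv.piCongrLeft']

noncomputable def e₂ : E3 := R e₁

lemma e₂_eq : e₂ = EuclideanSpace.single 1 1 := by
  simp [e₂, R, e₁]

lemma inner_e₁_e₂ : inner ℝ e₁ e₂ = (0 : ℝ) := by
  rw [e₂_eq, e₁, EuclideanSpace.inner_single_left]
  simp

lemma norm_e₂ : ‖e₂‖ = 1 := by rw [e₂, R.norm_map, norm_e₁]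

def cx : Fin 5 → ℤ := ![0, 1, -1, 0, 0]
def cy : Fin 5 → ℤ := ![0, 0, 0, 1, -1]

/-- The five cluster centres `0`, `e₁`, `-e₁`, `e₂`, `-e₂`. -/
noncomputable def ctr (i : Fin 5) : E3 := (cx i : ℝ) • e₁ + (cy i : ℝ) • e₂

lemma ctr0 : ctr 0 = 0 := by simp [ctr, cx, cy]
lemma ctr1 : ctr 1 = e₁ := by simp [ctr, cx, cy]
lemma ctr2 : ctr 2 = -e₁ := by
  have h1 : cx 2 = -1 := rfl
  have h2 : cy 2 = 0 := rfl
  rw [ctr, h1, h2]; simp
lemma ctr3 : ctr 3 = e₂ := by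
  have h1 : cx 3 = 0 := rfl
  have h2 : cy 3 = 1 := rfl
  rw [ctr, h1, h2]; simp
lemma ctr4 : ctr 4 = -e₂ := by
  have h1 : cx 4 = 0 := rfl
  have h2 : cy 4 = -1 := rfl
  rw [ctr, h1, h2]; simp

def sqk : Fin 5 → Fin 5 → ℕ :=
  ![![0, 1, 1, 1, 1], ![1, 0, 4, 2, 2], ![1, 4, 0, 2, 2], ![1, 2, 2, 0, 4], ![1, 2, 2, 4, 0]]

def dk : Fin 5 → Fin 5 → ℕ :=
  ![![0, 10000, 10000, 10000, 10000], ![10000, 0, 20000, 14143, 14143],
    ![10000, 20000, 0, 14143, 14143], ![10000, 14143, 14143, 0, 20000],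
    ![10000, 14143, 14143, 20000, 0]]

def Lk : Fin 5 → Fin 5 → ℕ :=
  ![![500000, 998, 998, 998, 998], ![998, 500000, 499, 706, 706],
    ![998, 499, 500000, 706, 706], ![998, 706, 706, 500000, 499],
    ![998, 706, 706, 499, 500000]]

def vk : Fin 5 → ℕ := ![1300, 610, 610, 610, 610]

lemma tab1 : ∀ i j : Fin 5, sqk i j * 10000 ^ 2 ≤ dk i j ^ 2 := by decide +kernel
lemma tab2 : ∀ i j : Fin 5, i ≠ j → 1 ≤ sqk i j := by decide +kernel
lemma tab3 : ∀ i j : Fin 5, (dk i j + 20) * Lk i j ≤ 10000000 := by decide +kernel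

lemma tab5 : ∀ i : Fin 5, vk i ≤ 1300 := by decide +kernel

/-- The combinatorial type inequality. -/
lemma tab4 : ∀ i j k : Fin 5, vk i + vk j + vk k < Lk i j + Lk i k + Lk j k ∨
    (i = 0 ∧ j = 1 ∧ k = 2) ∨ (i = 0 ∧ j = 2 ∧ k = 1) ∨ (i = 1 ∧ j = 0 ∧ k = 2) ∨
    (i = 1 ∧ j = 2 ∧ k = 0) ∨ (i = 2 ∧ j = 0 ∧ k = 1) ∨ (i = 2 ∧ j = 1 ∧ k = 0) ∨
    (i = 0 ∧ j = 3 ∧ k = 4) ∨ (i = 0 ∧ j = 4 ∧ k = 3) ∨ (i = 3 ∧ j = 0 ∧ k = 4) ∨
    (i = 3 ∧ j = 4 ∧ k = 0) ∨ (i = 4 ∧ j = 0 ∧ k = 3) ∨ (i = 4 ∧ j = 3 ∧ k = 0) := by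
  decide +kernel

lemma norm_ctr (i j : Fin 5) : ‖ctr i - ctr j‖ ^ 2 = (sqk i j : ℝ) := by
  have key : ∀ a b c d : ℝ, ‖(a • e₁ + b • e₂) - (c • e₁ + d • e₂)‖ ^ 2 =
      (a - c) ^ 2 + (b - d) ^ 2 := by
    intro a b c d
    have : (a • e₁ + b • e₂) - (c • e₁ + d • e₂) = (a - c) • e₁ + (b - d) • e₂ := by module
    rw [this, norm_add_sq_real, inner_smul_left, inner_smul_right, inner_e₁_e₂, norm_smul,
      norm_smul, norm_e₁, norm_e₂, Real.norm_eq_abs, Real.norm_eq_abs, mul_one, mul_one, sq_abs,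
      sq_abs]
    simp
  have h2 : (cx i - cx j) ^ 2 + (cy i - cy j) ^ 2 = (sqk i j : ℤ) := by
    revert i j; decide +kernel
  rw [ctr, ctr, key]
  exact_mod_cast h2

lemma ctr_le (i j : Fin 5) : ‖ctr i - ctr j‖ ≤ (dk i j : ℝ) / 10000 := by
  have h := norm_ctr i j
  have h2 := tab1 i j
  have h3 : (sqk i j : ℝ) * 10000 ^ 2 ≤ (dk i j : ℝ) ^ 2 := by exact_mod_cast h2
  have h4 : (0 : ℝ) ≤ (dk i j : ℝ) / 10000 := by positivity
  by_contra hcon
  rw [not_le] at hcon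
  have h5 : ((dk i j : ℝ) / 10000) ^ 2 < ‖ctr i - ctr j‖ ^ 2 := by gcongr
  rw [h, div_pow, div_lt_iff₀ (by positivity)] at h5
  linarith

lemma ctr_ge (i j : Fin 5) (hij : i ≠ j) : 1 ≤ ‖ctr i - ctr j‖ := by
  have h := norm_ctr i j
  have h2 := tab2 i j hij
  have h3 : (1 : ℝ) ≤ (sqk i j : ℝ) := by exact_mod_cast h2
  by_contra hcon
  rw [not_le] at hcon
  have h4 := norm_nonneg (ctr i - ctr j)
  nlinarith

lemma inv_lower {x y : E3} {i j : Fin 5} (hx : ‖x - ctr i‖ ≤ 1 / 1000)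
    (hy : ‖y - ctr j‖ ≤ 1 / 1000) : ENNReal.ofReal ((Lk i j : ℝ) / 1000) ≤ (edist x y)⁻¹ := by
  have hd : dist x y ≤ (dk i j : ℝ) / 10000 + 2 / 1000 := by
    have h1 : x - y = (x - ctr i) + (ctr i - ctr j) - (y - ctr j) := by abel
    have h2 := ctr_le i j
    calc dist x y = ‖(x - ctr i) + (ctr i - ctr j) - (y - ctr j)‖ := by rw [dist_eq_norm, h1]
      _ ≤ ‖(x - ctr i) + (ctr i - ctr j)‖ + ‖y - ctr j‖ := norm_sub_le _ _
      _ ≤ ‖x - ctr i‖ + ‖ctr i - ctr j‖ + ‖y - ctr j‖ := by gcongr; exact norm_add_le _ _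
      _ ≤ _ := by linarith
  have hr : (0 : ℝ) < (dk i j : ℝ) / 10000 + 2 / 1000 := by positivity
  have h3 := tab3 i j
  have h4 : ((dk i j : ℝ) + 20) * (Lk i j : ℝ) ≤ 10000000 := by exact_mod_cast h3
  have h5 : (Lk i j : ℝ) / 1000 ≤ ((dk i j : ℝ) / 10000 + 2 / 1000)⁻¹ := by
    rw [← one_div, le_div_iff₀ hr]
    nlinarith
  calc ENNReal.ofReal ((Lk i j : ℝ) / 1000)
      ≤ ENNReal.ofReal (((dk i j : ℝ) / 10000 + 2 / 1000)⁻¹) := ENNReal.ofReal_le_ofReal h5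
    _ = (ENNReal.ofReal ((dk i j : ℝ) / 10000 + 2 / 1000))⁻¹ := ENNReal.ofReal_inv_of_pos hr
    _ ≤ (edist x y)⁻¹ := by
      rw [ENNReal.inv_le_inv, edist_dist]
      exact ENNReal.ofReal_le_ofReal hd

/-! ### The cost -/

lemma coulomb_swap12 (x y z : E3) : coulomb x y z = coulomb y x z := by
  unfold coulomb
  rw [edist_comm x y]
  ring

lemma coulomb_swap23 (x y z : E3) : coulomb x y z = coulomb x z y := by
  unfold coulomb
  rw [edist_comm y z]
  ring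

lemma coulomb_R (x y z : E3) : coulomb (R x) (R y) (R z) = coulomb x y z := by
  unfold coulomb
  rw [R.edist_map, R.edist_map, R.edist_map]

lemma measurable_coulomb :
    Measurable (fun p : E3 × E3 × E3 => coulomb p.1 p.2.1 p.2.2) := by
  unfold coulomb
  have m1 : Measurable (fun p : E3 × E3 × E3 => edist p.1 p.2.1) :=
    measurable_fst.edist measurable_snd.fst
  have m2 : Measurable (fun p : E3 × E3 × E3 => edist p.1 p.2.2) :=
    measurable_fst.edist measurable_snd.snd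
  have m3 : Measurable (fun p : E3 × E3 × E3 => edist p.2.1 p.2.2) :=
    measurable_snd.fst.edist measurable_snd.snd
  exact (m1.inv.add m2.inv).add m3.inv

lemma edist_inv {x y : E3} (h : 0 < ‖x - y‖) :
    (edist x y)⁻¹ = ENNReal.ofReal (‖x - y‖⁻¹) := by
  rw [edist_dist, dist_eq_norm, ENNReal.ofReal_inv_of_pos h]

lemma coulomb_eq {x y z : E3} (h1 : 0 < ‖x - y‖) (h2 : 0 < ‖x - z‖) (h3 : 0 < ‖y - z‖) :
    coulomb x y z = ENNReal.ofReal (cR x y z) := by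
  unfold coulomb cR
  rw [edist_inv h1, edist_inv h2, edist_inv h3, ENNReal.ofReal_add (by positivity) (by positivity),
    ENNReal.ofReal_add (by positivity) (by positivity)]

/-- Points close to two different centres are at distance at least `99/100`. -/
lemma far {x y : E3} {i j : Fin 5} (hij : i ≠ j) (hx : ‖x - ctr i‖ ≤ 1 / 1000)
    (hy : ‖y - ctr j‖ ≤ 1 / 1000) : 99 / 100 ≤ ‖x - y‖ := by
  have h1 := ctr_ge i j hij
  have h2 : ctr i - ctr j = (x - y) - (x - ctr i) + (y - ctr j) := by abel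
  have h3 : ‖ctr i - ctr j‖ ≤ ‖x - y‖ + ‖x - ctr i‖ + ‖y - ctr j‖ := by
    calc ‖ctr i - ctr j‖ = ‖(x - y) - (x - ctr i) + (y - ctr j)‖ := by rw [← h2]
      _ ≤ ‖(x - y) - (x - ctr i)‖ + ‖y - ctr j‖ := norm_add_le _ _
      _ ≤ _ := by gcongr; exact norm_sub_le _ _
  linarith

namespace LD

variable (D : LD)

/-- The central cluster. -/
def U : Set E3 := Metric.ball 0 D.ε

lemma mU : MeasurableSet D.U := Metric.isOpen_ball.measurableSet

/-- Near `e₁`. -/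
def SB : Set E3 := D.Y '' D.U

/-- Near `-e₁`. -/
def SC : Set E3 := D.Z '' D.U

lemma injY : InjOn D.Y D.U := by
  intro x hx y hy h
  rw [← D.GY x hx, ← D.GY y hy, h]

lemma injZ : InjOn D.Z D.U := by
  intro x hx y hy h
  rw [← D.HZ x hx, ← D.HZ y hy, h]

lemma mSB : MeasurableSet D.SB := D.mU.image_of_continuousOn_injOn D.contY D.injY
lemma mSC : MeasurableSet D.SC := D.mU.image_of_continuousOn_injOn D.contZ D.injZ

/-- The five clusters. -/
def Sk (i : Fin 5) : Set E3 :=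
  match i with
  | 0 => D.U
  | 1 => D.SB
  | 2 => D.SC
  | 3 => R ⁻¹' D.SB
  | 4 => R ⁻¹' D.SC

lemma mR : Measurable (R : E3 → E3) := R.continuous.measurable

lemma mSk (i : Fin 5) : MeasurableSet (D.Sk i) := by
  fin_cases i
  · exact D.mU
  · exact D.mSB
  · exact D.mSC
  · exact mR D.mSB
  · exact mR D.mSC

lemma U_small {x : E3} (hx : x ∈ D.U) : ‖x‖ ≤ 1 / 1000 := by
  have h1 : ‖x‖ < D.ε := by simpa [U] using hx
  have := D.ε_le
  linarith

lemma R_mem_U {x : E3} : R x ∈ D.U ↔ x ∈ D.U := by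
  simp [U]

lemma close (i : Fin 5) {x : E3} (hx : x ∈ D.Sk i) : ‖x - ctr i‖ ≤ 1 / 1000 := by
  fin_cases i
  · have hx' : x ∈ D.U := hx
    have := D.U_small hx'
    simpa [ctr0] using this
  · obtain ⟨u, hu, rfl⟩ : x ∈ D.SB := hx
    have := D.nearY u hu
    simpa [ctr1] using this
  · obtain ⟨u, hu, rfl⟩ : x ∈ D.SC := hx
    have h := D.nearZ u hu
    have h2 : ctr 2 = -e₁ := ctr2
    show ‖D.Z u - ctr 2‖ ≤ 1 / 1000
    rw [h2, sub_neg_eq_add]
    exact h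
  · obtain ⟨u, hu, hux⟩ : R x ∈ D.SB := hx
    have h := D.nearY u hu
    have h2 : ctr 3 = e₂ := ctr3
    show ‖x - ctr 3‖ ≤ 1 / 1000
    rw [h2, ← R.norm_map, map_sub, e₂, R_R, ← hux]
    exact h
  · obtain ⟨u, hu, hux⟩ : R x ∈ D.SC := hx
    have h := D.nearZ u hu
    have h2 : ctr 4 = -e₂ := ctr4
    show ‖x - ctr 4‖ ≤ 1 / 1000
    rw [h2, ← R.norm_map, map_sub, map_neg, e₂, R_R, ← hux, sub_neg_eq_add]
    exact h

lemma disj {i j : Fin 5} (hij : i ≠ j) {x : E3} (hx : x ∈ D.Sk i) : x ∉ D.Sk j := by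
  intro hy
  have := far hij (D.close i hx) (D.close j hy)
  rw [sub_self, norm_zero] at this
  norm_num at this

lemma contG : ContinuousOn D.G D.SB := D.diffG.continuousOn
lemma contH : ContinuousOn D.H D.SC := D.diffH.continuousOn

lemma G_mem {y : E3} (hy : y ∈ D.SB) : D.G y ∈ D.U := by
  obtain ⟨u, hu, rfl⟩ := hy
  rw [D.GY u hu]; exact hu

lemma Y_G {y : E3} (hy : y ∈ D.SB) : D.Y (D.G y) = y := by
  obtain ⟨u, hu, rfl⟩ := hy
  rw [D.GY u hu]

/-- The residual as a function of the central point. -/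
noncomputable def b (x : E3) : ℝ := cR x (D.Y x) (D.Z x) - φA x - φC (D.Z x)

lemma d01 {x y : E3} (hx : x ∈ D.U) (hy : y ∈ D.SB) : 99 / 100 ≤ ‖x - y‖ :=
  far (i := 0) (j := 1) (by decide) (D.close 0 hx) (D.close 1 hy)
lemma d02 {x y : E3} (hx : x ∈ D.U) (hy : y ∈ D.SC) : 99 / 100 ≤ ‖x - y‖ :=
  far (i := 0) (j := 2) (by decide) (D.close 0 hx) (D.close 2 hy)
lemma d12 {x y : E3} (hx : x ∈ D.SB) (hy : y ∈ D.SC) : 99 / 100 ≤ ‖x - y‖ :=
  far (i := 1) (j := 2) (by decide) (D.close 1 hx) (D.close 2 hy)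

lemma cont_b : ContinuousOn D.b D.U := by
  have hY : ∀ x ∈ D.U, D.Y x ∈ D.SB := fun x hx => ⟨x, hx, rfl⟩
  have hZ : ∀ x ∈ D.U, D.Z x ∈ D.SC := fun x hx => ⟨x, hx, rfl⟩
  have cY : ContinuousOn D.Y D.U := D.contY
  have cZ : ContinuousOn D.Z D.U := D.contZ
  have c1 : ContinuousOn (fun x => ‖x - D.Y x‖⁻¹) D.U :=
    (continuousOn_id.sub cY).norm.inv₀ (fun x hx => by
      have := D.d01 hx (hY x hx)
      exact (by linarith : (0 : ℝ) < ‖x - D.Y x‖).ne')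
  have c2 : ContinuousOn (fun x => ‖x - D.Z x‖⁻¹) D.U :=
    (continuousOn_id.sub cZ).norm.inv₀ (fun x hx => by
      have := D.d02 hx (hZ x hx)
      exact (by linarith : (0 : ℝ) < ‖x - D.Z x‖).ne')
  have c3 : ContinuousOn (fun x => ‖D.Y x - D.Z x‖⁻¹) D.U :=
    (cY.sub cZ).norm.inv₀ (fun x hx => by
      have := D.d12 (hY x hx) (hZ x hx)
      exact (by linarith : (0 : ℝ) < ‖D.Y x - D.Z x‖).ne')
  have c4 : Continuous φA := by unfold φA; fun_prop
  have c5 : Continuous φC := by unfold φC; fun_prop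
  exact (((c1.add c2).add c3).sub c4.continuousOn).sub (c5.comp_continuousOn cZ)

/-- The potential near `e₁`. -/
noncomputable def φB (y : E3) : ℝ := D.b (D.G y)

lemma cont_φB : ContinuousOn D.φB D.SB :=
  D.cont_b.comp D.contG (fun _ hy => D.G_mem hy)

noncomputable def ψ0 : E3 → ℝ≥0∞ := D.U.indicator (fun x => ENNReal.ofReal (φA x))
noncomputable def ψ1 : E3 → ℝ≥0∞ := D.SB.indicator (fun x => ENNReal.ofReal (D.φB x))
noncomputable def ψ2 : E3 → ℝ≥0∞ := D.SC.indicator (fun x => ENNReal.ofReal (φC x))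

/-- The Kantorovich potential. -/
noncomputable def φ (x : E3) : ℝ≥0∞ :=
  D.ψ0 x + D.ψ1 x + D.ψ2 x + D.ψ1 (R x) + D.ψ2 (R x)

lemma mψ0 : Measurable D.ψ0 := by
  have : Measurable (fun x => ENNReal.ofReal (φA x)) := by
    have c4 : Continuous φA := by unfold φA; fun_prop
    exact (ENNReal.continuous_ofReal.comp c4).measurable
  exact this.indicator D.mU

lemma mψ2 : Measurable D.ψ2 := by
  have : Measurable (fun x => ENNReal.ofReal (φC x)) := by
    have c4 : Continuous φC := by unfold φC; fun_prop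
    exact (ENNReal.continuous_ofReal.comp c4).measurable
  exact this.indicator D.mSC

open scoped Classical in
lemma mψ1 : Measurable D.ψ1 := by
  have h : ContinuousOn (fun x => ENNReal.ofReal (D.φB x)) D.SB :=
    ENNReal.continuous_ofReal.comp_continuousOn D.cont_φB
  have := h.measurable_piecewise (g := fun _ => 0) continuousOn_const D.mSB
  rw [ψ1, ← Set.piecewise_eq_indicator]
  exact this

lemma mφ : Measurable D.φ := by
  unfold φ
  exact (((D.mψ0.add D.mψ1).add D.mψ2).add (D.mψ1.comp mR)).add (D.mψ2.comp mR)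

lemma φ_R (x : E3) : D.φ (R x) = D.φ x := by
  unfold φ
  have : D.ψ0 (R x) = D.ψ0 x := by
    unfold ψ0
    by_cases h : x ∈ D.U
    · rw [indicator_of_mem h, indicator_of_mem (D.R_mem_U.2 h), φA, φA, R.norm_map]
    · rw [indicator_of_notMem h, indicator_of_notMem (fun h' => h (D.R_mem_U.1 h'))]
  rw [this, R_R]
  ring

lemma φ0 {x : E3} (hx : x ∈ D.U) : D.φ x = ENNReal.ofReal (φA x) := by
  have h1 : x ∉ D.SB := D.disj (i := 0) (j := 1) (by decide) hx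
  have h2 : x ∉ D.SC := D.disj (i := 0) (j := 2) (by decide) hx
  have h3 : R x ∉ D.SB := D.disj (i := 0) (j := 3) (by decide) hx
  have h4 : R x ∉ D.SC := D.disj (i := 0) (j := 4) (by decide) hx
  simp only [φ, ψ0, ψ1, ψ2, indicator_of_mem hx, indicator_of_notMem h1, indicator_of_notMem h2,
    indicator_of_notMem h3, indicator_of_notMem h4, add_zero]

lemma φ1 {x : E3} (hx : x ∈ D.SB) : D.φ x = ENNReal.ofReal (D.φB x) := by
  have h1 : x ∉ D.U := D.disj (i := 1) (j := 0) (by decide) hx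
  have h2 : x ∉ D.SC := D.disj (i := 1) (j := 2) (by decide) hx
  have h3 : R x ∉ D.SB := D.disj (i := 1) (j := 3) (by decide) hx
  have h4 : R x ∉ D.SC := D.disj (i := 1) (j := 4) (by decide) hx
  simp only [φ, ψ0, ψ1, ψ2, indicator_of_mem hx, indicator_of_notMem h1, indicator_of_notMem h2,
    indicator_of_notMem h3, indicator_of_notMem h4, add_zero, zero_add]

lemma φ2 {x : E3} (hx : x ∈ D.SC) : D.φ x = ENNReal.ofReal (φC x) := by
  have h1 : x ∉ D.U := D.disj (i := 2) (j := 0) (by decide) hx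
  have h2 : x ∉ D.SB := D.disj (i := 2) (j := 1) (by decide) hx
  have h3 : R x ∉ D.SB := D.disj (i := 2) (j := 3) (by decide) hx
  have h4 : R x ∉ D.SC := D.disj (i := 2) (j := 4) (by decide) hx
  simp only [φ, ψ0, ψ1, ψ2, indicator_of_mem hx, indicator_of_notMem h1, indicator_of_notMem h2,
    indicator_of_notMem h3, indicator_of_notMem h4, add_zero, zero_add]

lemma φA_nonneg {x : E3} (hx : x ∈ D.U) : 0 ≤ φA x := by
  have h1 := D.U_small hx
  have h2 := norm_nonneg x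
  unfold φA
  nlinarith

lemma φA_le (x : E3) : φA x ≤ 13 / 10 := by
  unfold φA
  have : 0 ≤ ‖x‖ ^ 2 := by positivity
  linarith

lemma φB_bounds {y : E3} (hy : y ∈ D.SB) : 0 ≤ D.φB y ∧ D.φB y ≤ 61 / 100 := by
  have h := D.near (D.G y) (D.G_mem hy)
  rw [abs_le] at h
  unfold φB b
  constructor <;> linarith [h.1, h.2]

lemma φC_bounds {z : E3} (hz : z ∈ D.SC) : 0 ≤ φC z ∧ φC z ≤ 61 / 100 := by
  obtain ⟨u, hu, rfl⟩ := hz
  have h := D.nearZ u hu
  have h0 := norm_nonneg (D.Z u + e₁)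
  have h1 := abs_real_inner_le_norm e₁ (D.Z u + e₁)
  rw [norm_e₁, one_mul, abs_le] at h1
  unfold φC
  constructor <;> nlinarith [h1.1, h1.2]

lemma φ_le (i : Fin 5) {x : E3} (hx : x ∈ D.Sk i) : D.φ x ≤ ENNReal.ofReal ((vk i : ℝ) / 1000) := by
  fin_cases i
  · rw [D.φ0 hx]
    apply ENNReal.ofReal_le_ofReal
    have := φA_le x
    have h : vk 0 = 1300 := rfl
    simp only [Fin.zero_eta, h]
    norm_num
    linarith
  · rw [D.φ1 hx]
    apply ENNReal.ofReal_le_ofReal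
    have := (D.φB_bounds hx).2
    have h : vk 1 = 610 := rfl
    simp only [Fin.mk_one, h]
    norm_num
    linarith
  · rw [D.φ2 hx]
    apply ENNReal.ofReal_le_ofReal
    have := (D.φC_bounds hx).2
    have h : vk 2 = 610 := rfl
    simp only [Fin.reduceFinMk, h]
    norm_num
    linarith
  · have hx' : R x ∈ D.SB := hx
    rw [← D.φ_R, D.φ1 hx']
    apply ENNReal.ofReal_le_ofReal
    have := (D.φB_bounds hx').2
    have h : vk 3 = 610 := rfl
    simp only [Fin.reduceFinMk, h]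
    norm_num
    linarith
  · have hx' : R x ∈ D.SC := hx
    rw [← D.φ_R, D.φ2 hx']
    apply ENNReal.ofReal_le_ofReal
    have := (D.φC_bounds hx').2
    have h : vk 4 = 610 := rfl
    simp only [Fin.reduceFinMk, h]
    norm_num
    linarith

/-- The key inequality for the triple of clusters `0, e₁, -e₁`. -/
lemma base {x y z : E3} (hx : x ∈ D.U) (hy : y ∈ D.SB) (hz : z ∈ D.SC) :
    D.φ x + D.φ y + D.φ z ≤ coulomb x y z ∧
      (coulomb x y z = D.φ x + D.φ y + D.φ z → y = D.Y x ∧ z = D.Z x) := by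
  have hu : D.G y ∈ D.U := D.G_mem hy
  have hYu : D.Y (D.G y) = y := D.Y_G hy
  set u := D.G y with hu_def
  have hw : D.Z u ∈ D.SC := ⟨u, hu, rfl⟩
  have e1 : Φ1 u y (D.Z u) = 0 := by
    have := D.eq1 u hu
    rwa [hYu] at this
  have e3 : Φ3 u y (D.Z u) = 0 := by
    have := D.eq3 u hu
    rwa [hYu] at this
  have k1 := D.d01 hx hy
  have k2 := D.d02 hx hz
  have k3 := D.d12 hy hz
  have key := key_ineq u y (D.Z u) x z e1 e3 (D.d01 hu hy) (D.d02 hu hw) (D.d12 hy hw)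
    (by linarith) (by linarith) (by linarith)
  have hB : D.φB y = cR u y (D.Z u) - φA u - φC (D.Z u) := by
    rw [φB, ← hu_def, b, hYu]
  rw [← hB] at key
  have nA := D.φA_nonneg hx
  have nB := (D.φB_bounds hy).1
  have nC := (D.φC_bounds hz).1
  have hsum : D.φ x + D.φ y + D.φ z = ENNReal.ofReal (φA x + D.φB y + φC z) := by
    rw [D.φ0 hx, D.φ1 hy, D.φ2 hz, ENNReal.ofReal_add (by positivity) nC,
      ENNReal.ofReal_add nA nB]
  have hc : coulomb x y z = ENNReal.ofReal (cR x y z) :=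
    coulomb_eq (by linarith) (by linarith) (by linarith)
  have p1 : 0 ≤ ‖x - u‖ ^ 2 := by positivity
  have p2 : 0 ≤ ‖z - D.Z u‖ ^ 2 := by positivity
  rw [hsum, hc]
  constructor
  · apply ENNReal.ofReal_le_ofReal
    linarith
  · intro heq
    have heq' : cR x y z = φA x + D.φB y + φC z := by
      rwa [ENNReal.ofReal_eq_ofReal_iff] at heq
      · unfold cR; positivity
      · positivity
    have z1 : ‖x - u‖ ^ 2 = 0 := by linarith
    have z2 : ‖z - D.Z u‖ ^ 2 = 0 := by linarith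
    have z1' : x = u := by
      rw [sq_eq_zero_iff, norm_sub_eq_zero_iff] at z1; exact z1
    have z2' : z = D.Z u := by
      rw [sq_eq_zero_iff, norm_sub_eq_zero_iff] at z2; exact z2
    rw [z1', hYu]
    exact ⟨rfl, z2'⟩

/-- Contact triples are optimal. -/
lemma base_contact {u : E3} (hu : u ∈ D.U) :
    coulomb u (D.Y u) (D.Z u) = D.φ u + D.φ (D.Y u) + D.φ (D.Z u) := by
  have hy : D.Y u ∈ D.SB := ⟨u, hu, rfl⟩
  have hz : D.Z u ∈ D.SC := ⟨u, hu, rfl⟩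
  have k1 := D.d01 hu hy
  have k2 := D.d02 hu hz
  have k3 := D.d12 hy hz
  have nA := D.φA_nonneg hu
  have nB := (D.φB_bounds hy).1
  have nC := (D.φC_bounds hz).1
  rw [coulomb_eq (by linarith) (by linarith) (by linarith), D.φ0 hu, D.φ1 hy, D.φ2 hz,
    ← ENNReal.ofReal_add nA nB, ← ENNReal.ofReal_add (by positivity) nC]
  congr 1
  rw [φB, D.GY u hu, b]
  ring

open scoped Classical in
noncomputable def Y0 (x : E3) : E3 := D.U.piecewise D.Y (fun _ => e₁) x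

open scoped Classical in
noncomputable def Z0 (x : E3) : E3 := D.U.piecewise D.Z (fun _ => e₁) x

open scoped Classical in
lemma Y0_eq {x : E3} (hx : x ∈ D.U) : D.Y0 x = D.Y x := by
  unfold Y0; exact Set.piecewise_eq_of_mem _ _ _ hx

open scoped Classical in
lemma Z0_eq {x : E3} (hx : x ∈ D.U) : D.Z0 x = D.Z x := by
  unfold Z0; exact Set.piecewise_eq_of_mem _ _ _ hx

open scoped Classical in
lemma mY0 : Measurable D.Y0 := by
  unfold Y0; exact ContinuousOn.measurable_piecewise D.contY continuousOn_const D.mU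

open scoped Classical in
lemma mZ0 : Measurable D.Z0 := by
  unfold Z0; exact ContinuousOn.measurable_piecewise D.contZ continuousOn_const D.mU

/-- The two families of second contact points. -/
noncomputable def Yb : Bool → E3 → E3
  | true => D.Y0
  | false => fun x => R (D.Y0 (R x))

/-- The two families of third contact points. -/
noncomputable def Zb : Bool → E3 → E3
  | true => D.Z0
  | false => fun x => R (D.Z0 (R x))

lemma mYb (s : Bool) : Measurable (D.Yb s) := by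
  cases s
  · exact mR.comp (D.mY0.comp mR)
  · exact D.mY0

lemma mZb (s : Bool) : Measurable (D.Zb s) := by
  cases s
  · exact mR.comp (D.mZ0.comp mR)
  · exact D.mZ0

lemma Yb_true_mem {u : E3} (hu : u ∈ D.U) : D.Yb true u ∈ D.Sk 1 := by
  show D.Y0 u ∈ D.SB
  rw [D.Y0_eq hu]; exact ⟨u, hu, rfl⟩

lemma Zb_true_mem {u : E3} (hu : u ∈ D.U) : D.Zb true u ∈ D.Sk 2 := by
  show D.Z0 u ∈ D.SC
  rw [D.Z0_eq hu]; exact ⟨u, hu, rfl⟩

lemma Yb_false_mem {u : E3} (hu : u ∈ D.U) : D.Yb false u ∈ D.Sk 3 := by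
  show R (R (D.Y0 (R u))) ∈ D.SB
  rw [R_R, D.Y0_eq (D.R_mem_U.2 hu)]; exact ⟨R u, D.R_mem_U.2 hu, rfl⟩

lemma Zb_false_mem {u : E3} (hu : u ∈ D.U) : D.Zb false u ∈ D.Sk 4 := by
  show R (R (D.Z0 (R u))) ∈ D.SC
  rw [R_R, D.Z0_eq (D.R_mem_U.2 hu)]; exact ⟨R u, D.R_mem_U.2 hu, rfl⟩

lemma contYb (s : Bool) : ContinuousOn (D.Yb s) D.U := by
  have h : ContinuousOn D.Y0 D.U := ContinuousOn.congr D.contY (fun x hx => D.Y0_eq hx)
  cases s
  · exact R.continuous.comp_continuousOn (h.comp R.continuous.continuousOn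
      (fun x hx => D.R_mem_U.2 hx))
  · exact h

lemma contZb (s : Bool) : ContinuousOn (D.Zb s) D.U := by
  have h : ContinuousOn D.Z0 D.U := ContinuousOn.congr D.contZ (fun x hx => D.Z0_eq hx)
  cases s
  · exact R.continuous.comp_continuousOn (h.comp R.continuous.continuousOn
      (fun x hx => D.R_mem_U.2 hx))
  · exact h

lemma injYb (s : Bool) : InjOn (D.Yb s) D.U := by
  have h : InjOn D.Y0 D.U := fun x hx y hy hxy => by
    rw [D.Y0_eq hx, D.Y0_eq hy] at hxy; exact D.injY hx hy hxy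
  cases s
  · intro x hx y hy hxy
    have h1 : D.Y0 (R x) = D.Y0 (R y) := R.injective hxy
    exact R.injective (h (D.R_mem_U.2 hx) (D.R_mem_U.2 hy) h1)
  · exact h

lemma injZb (s : Bool) : InjOn (D.Zb s) D.U := by
  have h : InjOn D.Z0 D.U := fun x hx y hy hxy => by
    rw [D.Z0_eq hx, D.Z0_eq hy] at hxy; exact D.injZ hx hy hxy
  cases s
  · intro x hx y hy hxy
    have h1 : D.Z0 (R x) = D.Z0 (R y) := R.injective hxy
    exact R.injective (h (D.R_mem_U.2 hx) (D.R_mem_U.2 hy) h1)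
  · exact h

/-- The property of triples to be established on all of the support. -/
def P (x y z : E3) : Prop := D.φ x + D.φ y + D.φ z ≤ coulomb x y z ∧
  (coulomb x y z = D.φ x + D.φ y + D.φ z → IsContact D.U D.Yb D.Zb x y z)

lemma P_true {x y z : E3} (hx : x ∈ D.Sk 0) (hy : y ∈ D.Sk 1) (hz : z ∈ D.Sk 2) :
    D.P x y z := by
  have hx' : x ∈ D.U := hx
  obtain ⟨h1, h2⟩ := D.base hx' hy hz
  refine ⟨h1, fun h => ?_⟩
  obtain ⟨h3, h4⟩ := h2 h
  refine ⟨x, hx', true, Or.inl ⟨rfl, ?_, ?_⟩⟩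
  · show y = D.Y0 x
    rw [D.Y0_eq hx']; exact h3
  · show z = D.Z0 x
    rw [D.Z0_eq hx']; exact h4

lemma P_false {x y z : E3} (hx : x ∈ D.Sk 0) (hy : y ∈ D.Sk 3) (hz : z ∈ D.Sk 4) :
    D.P x y z := by
  have hx' : x ∈ D.U := hx
  have hRx : R x ∈ D.U := D.R_mem_U.2 hx'
  obtain ⟨h1, h2⟩ := D.base hRx hy hz
  rw [coulomb_R, D.φ_R, D.φ_R, D.φ_R] at h1 h2
  refine ⟨h1, fun h => ?_⟩
  obtain ⟨h3, h4⟩ := h2 h
  refine ⟨x, hx', false, Or.inl ⟨rfl, ?_, ?_⟩⟩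
  · show y = R (D.Y0 (R x))
    rw [D.Y0_eq hRx, ← h3, R_R]
  · show z = R (D.Z0 (R x))
    rw [D.Z0_eq hRx, ← h4, R_R]

lemma P_swap12 {x y z : E3} (h : D.P x y z) : D.P y x z := by
  obtain ⟨h1, h2⟩ := h
  have e : D.φ y + D.φ x + D.φ z = D.φ x + D.φ y + D.φ z := by ring
  refine ⟨?_, fun h => ?_⟩
  · rw [e, coulomb_swap12]; exact h1
  · rw [e, coulomb_swap12] at h
    obtain ⟨u, hu, s, h3⟩ := h2 h
    exact ⟨u, hu, s, by tauto⟩

lemma P_swap23 {x y z : E3} (h : D.P x y z) : D.P x z y := by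
  obtain ⟨h1, h2⟩ := h
  have e : D.φ x + D.φ z + D.φ y = D.φ x + D.φ y + D.φ z := by ring
  refine ⟨?_, fun h => ?_⟩
  · rw [e, coulomb_swap23]; exact h1
  · rw [e, coulomb_swap23] at h
    obtain ⟨u, hu, s, h3⟩ := h2 h
    exact ⟨u, hu, s, by tauto⟩

lemma P_strict {i j k : Fin 5} (h : vk i + vk j + vk k < Lk i j + Lk i k + Lk j k)
    {x y z : E3} (hx : x ∈ D.Sk i) (hy : y ∈ D.Sk j) (hz : z ∈ D.Sk k) : D.P x y z := by
  have h1 : ((vk i : ℝ) + vk j + vk k) < (Lk i j : ℝ) + Lk i k + Lk j k := by exact_mod_cast h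
  have h2 : D.φ x + D.φ y + D.φ z ≤
      ENNReal.ofReal ((vk i : ℝ) / 1000 + (vk j : ℝ) / 1000 + (vk k : ℝ) / 1000) := by
    rw [ENNReal.ofReal_add (by positivity) (by positivity),
      ENNReal.ofReal_add (by positivity) (by positivity)]
    exact add_le_add (add_le_add (D.φ_le i hx) (D.φ_le j hy)) (D.φ_le k hz)
  have h3 : ENNReal.ofReal ((Lk i j : ℝ) / 1000 + (Lk i k : ℝ) / 1000 + (Lk j k : ℝ) / 1000) ≤
      coulomb x y z := by
    rw [ENNReal.ofReal_add (by positivity) (by positivity),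
      ENNReal.ofReal_add (by positivity) (by positivity)]
    have cx := D.close i hx
    have cy := D.close j hy
    have cz := D.close k hz
    exact add_le_add (add_le_add (inv_lower cx cy) (inv_lower cx cz)) (inv_lower cy cz)
  have h4 : ENNReal.ofReal ((vk i : ℝ) / 1000 + (vk j : ℝ) / 1000 + (vk k : ℝ) / 1000) <
      ENNReal.ofReal ((Lk i j : ℝ) / 1000 + (Lk i k : ℝ) / 1000 + (Lk j k : ℝ) / 1000) := by
    rw [ENNReal.ofReal_lt_ofReal_iff_of_nonneg (by positivity)]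
    linarith
  have h5 : D.φ x + D.φ y + D.φ z < coulomb x y z := h2.trans_lt (h4.trans_le h3)
  exact ⟨h5.le, fun h => absurd h h5.ne'⟩

lemma P_all (i j k : Fin 5) {x y z : E3} (hx : x ∈ D.Sk i) (hy : y ∈ D.Sk j)
    (hz : z ∈ D.Sk k) : D.P x y z := by
  rcases tab4 i j k with h | ⟨rfl, rfl, rfl⟩ | ⟨rfl, rfl, rfl⟩ | ⟨rfl, rfl, rfl⟩ |
    ⟨rfl, rfl, rfl⟩ | ⟨rfl, rfl, rfl⟩ | ⟨rfl, rfl, rfl⟩ | ⟨rfl, rfl, rfl⟩ | ⟨rfl, rfl, rfl⟩ |
    ⟨rfl, rfl, rfl⟩ | ⟨rfl, rfl, rfl⟩ | ⟨rfl, rfl, rfl⟩ | ⟨rfl, rfl, rfl⟩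
  · exact D.P_strict h hx hy hz
  · exact D.P_true hx hy hz
  · exact D.P_swap23 (D.P_true hx hz hy)
  · exact D.P_swap12 (D.P_true hy hx hz)
  · exact D.P_swap23 (D.P_swap12 (D.P_true hz hx hy))
  · exact D.P_swap12 (D.P_swap23 (D.P_true hy hz hx))
  · exact D.P_swap23 (D.P_swap12 (D.P_swap23 (D.P_true hz hy hx)))
  · exact D.P_false hx hy hz
  · exact D.P_swap23 (D.P_false hx hz hy)
  · exact D.P_swap12 (D.P_false hy hx hz)
  · exact D.P_swap23 (D.P_swap12 (D.P_false hz hx hy))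
  · exact D.P_swap12 (D.P_swap23 (D.P_false hy hz hx))
  · exact D.P_swap23 (D.P_swap12 (D.P_swap23 (D.P_false hz hy hx)))

lemma contact (u : E3) (hu : u ∈ D.U) (s : Bool) :
    coulomb u (D.Yb s u) (D.Zb s u) = D.φ u + D.φ (D.Yb s u) + D.φ (D.Zb s u) := by
  cases s
  · have hRu := D.R_mem_U.2 hu
    have h := D.base_contact hRu
    show coulomb u (R (D.Y0 (R u))) (R (D.Z0 (R u))) =
      D.φ u + D.φ (R (D.Y0 (R u))) + D.φ (R (D.Z0 (R u)))
    rw [D.Y0_eq hRu, D.Z0_eq hRu, D.φ_R, D.φ_R, ← coulomb_R, R_R, R_R, h, D.φ_R]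
  · show coulomb u (D.Y0 u) (D.Z0 u) = D.φ u + D.φ (D.Y0 u) + D.φ (D.Z0 u)
    rw [D.Y0_eq hu, D.Z0_eq hu]
    exact D.base_contact hu

/-- The support. -/
def S : Set E3 := ⋃ i, D.Sk i

lemma φ_bdd (x : E3) : D.φ x ≤ ENNReal.ofReal 2 := by
  by_cases hx : x ∈ D.S
  · obtain ⟨i, hi⟩ := mem_iUnion.1 hx
    refine (D.φ_le i hi).trans (ENNReal.ofReal_le_ofReal ?_)
    have h : vk i ≤ 1300 := tab5 i
    have h' : (vk i : ℝ) ≤ 1300 := by exact_mod_cast h
    linarith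
  · have h : ∀ i, x ∉ D.Sk i := fun i hi => hx (mem_iUnion.2 ⟨i, hi⟩)
    have h0 : x ∉ D.U := h 0
    have h1 : x ∉ D.SB := h 1
    have h2 : x ∉ D.SC := h 2
    have h3 : R x ∉ D.SB := h 3
    have h4 : R x ∉ D.SC := h 4
    simp only [φ, ψ0, ψ1, ψ2, indicator_of_notMem h0, indicator_of_notMem h1,
      indicator_of_notMem h2, indicator_of_notMem h3, indicator_of_notMem h4, add_zero]
    exact bot_le

/-- The normalised volume on the central cluster. -/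
noncomputable def α : Measure E3 := (volume D.U)⁻¹ • volume.restrict D.U

lemma vol_pos : volume D.U ≠ 0 := (Metric.measure_ball_pos volume 0 D.ε_pos).ne'
lemma vol_fin : volume D.U ≠ ∞ := measure_ball_lt_top.ne

instance : IsProbabilityMeasure D.α := by
  constructor
  simp only [α, Measure.smul_apply, Measure.restrict_apply MeasurableSet.univ, univ_inter,
    smul_eq_mul]
  exact ENNReal.inv_mul_cancel D.vol_pos D.vol_fin

lemma α_ae : ∀ᵐ x ∂D.α, x ∈ D.U := by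
  unfold α
  apply Measure.ae_smul_measure
  exact ae_restrict_mem D.mU

lemma α_null {A : Set E3} (h : volume (A ∩ D.U) = 0) : D.α A = 0 := by
  have h1 : volume.restrict D.U A = 0 := by
    rw [Measure.restrict_apply' D.mU]; exact h
  simp only [α, Measure.smul_apply, h1, smul_zero]

lemma null_Y0 {N : Set E3} (hN : volume N = 0) : volume (D.Y0 ⁻¹' N ∩ D.U) = 0 := by
  have h1 : volume (D.G '' (N ∩ D.SB)) = 0 := by
    apply addHaar_image_eq_zero_of_differentiableOn_of_addHaar_eq_zero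
    · exact D.diffG.mono inter_subset_right
    · exact measure_mono_null inter_subset_left hN
  refine measure_mono_null ?_ h1
  rintro x ⟨hx, hxU⟩
  have h2 : D.Y0 x = D.Y x := D.Y0_eq hxU
  rw [mem_preimage, h2] at hx
  exact ⟨D.Y x, ⟨hx, ⟨x, hxU, rfl⟩⟩, D.GY x hxU⟩

lemma null_Z0 {N : Set E3} (hN : volume N = 0) : volume (D.Z0 ⁻¹' N ∩ D.U) = 0 := by
  have h1 : volume (D.H '' (N ∩ D.SC)) = 0 := by
    apply addHaar_image_eq_zero_of_differentiableOn_of_addHaar_eq_zero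
    · exact D.diffH.mono inter_subset_right
    · exact measure_mono_null inter_subset_left hN
  refine measure_mono_null ?_ h1
  rintro x ⟨hx, hxU⟩
  have h2 : D.Z0 x = D.Z x := D.Z0_eq hxU
  rw [mem_preimage, h2] at hx
  exact ⟨D.Z x, ⟨hx, ⟨x, hxU, rfl⟩⟩, D.HZ x hxU⟩

lemma vol_R {A : Set E3} (hA : volume A = 0) : volume (R ⁻¹' A) = 0 :=
  R.measurePreserving.quasiMeasurePreserving.preimage_null hA

lemma null_Yb (s : Bool) {N : Set E3} (hN : volume N = 0) :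
    volume (D.Yb s ⁻¹' N ∩ D.U) = 0 := by
  cases s
  · have h1 := D.null_Y0 (vol_R hN)
    have h2 := vol_R h1
    refine measure_mono_null ?_ h2
    rintro x ⟨hx, hxU⟩
    exact ⟨hx, D.R_mem_U.2 hxU⟩
  · exact D.null_Y0 hN

lemma null_Zb (s : Bool) {N : Set E3} (hN : volume N = 0) :
    volume (D.Zb s ⁻¹' N ∩ D.U) = 0 := by
  cases s
  · have h1 := D.null_Z0 (vol_R hN)
    have h2 := vol_R h1
    refine measure_mono_null ?_ h2
    rintro x ⟨hx, hxU⟩
    exact ⟨hx, D.R_mem_U.2 hxU⟩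
  · exact D.null_Z0 hN

/-- The marginal of the counterexample. -/
noncomputable def μ : Measure E3 := mix D.α D.Yb D.Zb

lemma μ_ac : D.μ ≪ volume := by
  refine Measure.AbsolutelyContinuous.mk (fun N hN h0 => ?_)
  have hY := fun s => D.α_null (D.null_Yb s h0)
  have hZ := fun s => D.α_null (D.null_Zb s h0)
  have hα : D.α N = 0 := D.α_null (measure_mono_null inter_subset_left h0)
  simp only [μ, mix, Measure.smul_apply, Measure.add_apply, smul_eq_mul,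
    Measure.map_apply (D.mYb _) hN, Measure.map_apply (D.mZb _) hN, hY, hZ, hα, add_zero,
    mul_zero]

lemma μ_prob : IsProbabilityMeasure D.μ := mix_prob D.mYb D.mZb

lemma plan_isPlan : IsTransportPlan D.μ (plan D.α D.Yb D.Zb) :=
  ⟨plan_prob D.mYb D.mZb, plan_fst D.mYb D.mZb, plan_snd D.mYb D.mZb, plan_thd D.mYb D.mZb⟩

lemma kantorovich_le : kantorovichValue D.μ ≤ 3 * ∫⁻ x, D.φ x ∂D.μ := by
  apply sInf_le
  refine ⟨plan D.α D.Yb D.Zb, D.plan_isPlan, ?_⟩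
  symm
  apply plan_cost coulomb measurable_coulomb _ D.U D.α_ae D.mYb D.mZb D.φ D.mφ
    (fun u hu s => D.contact u hu s)
  intro x y z
  rw [coulomb_swap12, coulomb_swap23]

lemma int_fin : ∫⁻ x, D.φ x ∂D.μ ≠ ∞ := by
  have := D.μ_prob
  apply ne_top_of_le_ne_top (ENNReal.ofReal_ne_top (r := 2))
  calc ∫⁻ x, D.φ x ∂D.μ ≤ ∫⁻ _, ENNReal.ofReal 2 ∂D.μ := lintegral_mono D.φ_bdd
    _ = ENNReal.ofReal 2 := by simp

lemma kantorovich_fin : kantorovichValue D.μ < ∞ :=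
  D.kantorovich_le.trans_lt (ENNReal.mul_lt_top (by norm_num) (lt_top_iff_ne_top.2 D.int_fin))

lemma no_monge (T₂ T₃ : E3 → E3) (hT₂ : Measurable T₂) (hT₃ : Measurable T₃)
    (p₂ : D.μ.map T₂ = D.μ) (p₃ : D.μ.map T₃ = D.μ) :
    kantorovichValue D.μ < ∫⁻ x, coulomb x (T₂ x) (T₃ x) ∂D.μ := by
  have inS : ∀ i x, x ∈ D.Sk i → x ∈ D.S := fun i x hx => mem_iUnion.2 ⟨i, hx⟩
  refine D.kantorovich_le.trans_lt ?_
  apply Vale.Agent.P121.no_monge coulomb measurable_coulomb D.α D.U D.mU D.α_ae D.Yb D.Zb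
    D.mYb D.mZb
    (fun s E hE mE => mE.image_of_continuousOn_injOn ((D.contYb s).mono hE) ((D.injYb s).mono hE))
    (fun s E hE mE => mE.image_of_continuousOn_injOn ((D.contZb s).mono hE) ((D.injZb s).mono hE))
    D.injYb D.injZb ?_ ?_ ?_ ?_ ?_ D.φ D.mφ (ENNReal.ofReal 2) ENNReal.ofReal_ne_top D.φ_bdd
    D.S (fun x hx => inS 0 x hx) ?_ ?_ (MeasurableSet.iUnion D.mSk) ?_ ?_ T₂ T₃ hT₂ hT₃ p₂ p₃
  · intro s u hu
    cases s
    · exact D.disj (j := 0) (by decide) (D.Yb_false_mem hu)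
    · exact D.disj (j := 0) (by decide) (D.Yb_true_mem hu)
  · intro s u hu
    cases s
    · exact D.disj (j := 0) (by decide) (D.Zb_false_mem hu)
    · exact D.disj (j := 0) (by decide) (D.Zb_true_mem hu)
  · intro s t u hu v hv h
    cases s <;> cases t
    · exact D.disj (j := 4) (by decide) (D.Yb_false_mem hu) (h ▸ D.Zb_false_mem hv)
    · exact D.disj (j := 2) (by decide) (D.Yb_false_mem hu) (h ▸ D.Zb_true_mem hv)
    · exact D.disj (j := 4) (by decide) (D.Yb_true_mem hu) (h ▸ D.Zb_false_mem hv)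
    · exact D.disj (j := 2) (by decide) (D.Yb_true_mem hu) (h ▸ D.Zb_true_mem hv)
  · intro u hu v hv h
    exact D.disj (j := 3) (by decide) (D.Yb_true_mem hu) (h ▸ D.Yb_false_mem hv)
  · intro u hu v hv h
    exact D.disj (j := 4) (by decide) (D.Zb_true_mem hu) (h ▸ D.Zb_false_mem hv)
  · intro s u hu
    cases s
    · exact inS _ _ (D.Yb_false_mem hu)
    · exact inS _ _ (D.Yb_true_mem hu)
  · intro s u hu
    cases s
    · exact inS _ _ (D.Zb_false_mem hu)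
    · exact inS _ _ (D.Zb_true_mem hu)
  · intro x hx y hy z hz
    obtain ⟨i, hi⟩ := mem_iUnion.1 hx
    obtain ⟨j, hj⟩ := mem_iUnion.1 hy
    obtain ⟨k, hk⟩ := mem_iUnion.1 hz
    exact (D.P_all i j k hi hj hk).1
  · intro x hx y hy z hz h
    obtain ⟨i, hi⟩ := mem_iUnion.1 hx
    obtain ⟨j, hj⟩ := mem_iUnion.1 hy
    obtain ⟨k, hk⟩ := mem_iUnion.1 hz
    exact (D.P_all i j k hi hj hk).2 h

end LD

/-- The counterexample. -/
theorem exists_counterexample : ∃ μ : Measure E3, IsProbabilityMeasure μ ∧ μ ≪ volume ∧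
    kantorovichValue μ < ∞ ∧ ¬ ∃ T₂ T₃, IsOptimalMonge μ T₂ T₃ := by
  obtain ⟨D⟩ := nonempty_LD
  refine ⟨D.μ, D.μ_prob, D.μ_ac, D.kantorovich_fin, ?_⟩
  rintro ⟨T₂, T₃, h2, h3, p2, p3, hv⟩
  exact (D.no_monge T₂ T₃ h2 h3 p2 p3).ne' hv

end Vale.Agent.P121
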