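import Vale.Agent.P121.Basic

open MeasureTheory Filter Topology
open scoped ENNReal

namespace Vale.Agent.P121

/-- Inverse function theorem packaged for finite-dimensional self-maps. -/
lemma ift {V : Type*} [NormedAddCommGroup V] [NormedSpace ℝ V] [FiniteDimensional ℝ V]
    (Ψ : V → V) (L : V →L[ℝ] V) (P : V) (hC : ContDiffAt ℝ 1 Ψ P) (hL : HasFDerivAt Ψ L P)
    (inj : ∀ v, L v = 0 → v = 0) :
    ∃ g : V → V, ContDiffAt ℝ 1 g (Ψ P) ∧ g (Ψ P) = P ∧ (∀ᶠ p in 𝓝 P, g (Ψ p) = p) ∧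
      (∀ᶠ w in 𝓝 (Ψ P), Ψ (g w) = w) := by
  have : CompleteSpace V := FiniteDimensional.complete ℝ V
  have hinj : Function.Injective (L : V →ₗ[ℝ] V) := by
    rw [← LinearMap.ker_eq_bot, LinearMap.ker_eq_bot']
    exact inj
  let Le : V ≃L[ℝ] V := (LinearEquiv.ofInjectiveEndo (L : V →ₗ[ℝ] V) hinj).toContinuousLinearEquiv
  have hLe : (Le : V →L[ℝ] V) = L := by
    ext v
    simp [Le]
  have hL' : HasFDerivAt Ψ (Le : V →L[ℝ] V) P := by rw [hLe]; exact hL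
  have hstrict := hC.hasStrictFDerivAt' hL' one_ne_zero
  exact ⟨hC.localInverse hL' one_ne_zero, hC.to_localInverse hL' one_ne_zero,
    hC.localInverse_apply_image hL' one_ne_zero, hstrict.eventually_left_inverse,
    hstrict.eventually_right_inverse⟩

lemma hasFDerivAt_inv_norm_cube (v : E3) (hv : v ≠ 0) :
    HasFDerivAt (fun w : E3 => ‖w‖⁻¹ ^ 3) ((-3 * ‖v‖⁻¹ ^ 5) • innerSL ℝ v) v := by
  have hn : 0 < ‖v‖ := norm_pos_iff.mpr hv
  have h1 : HasFDerivAt (fun w : E3 => ‖w‖ ^ 2) (2 • (innerSL ℝ v)) v :=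
    (hasStrictFDerivAt_norm_sq v).hasFDerivAt
  have h2 : HasDerivAt (fun t : ℝ => (Real.sqrt t)⁻¹ ^ 3)
      (-(3 / 2) * ‖v‖⁻¹ ^ 5) (‖v‖ ^ 2) := by
    have hs : HasDerivAt (fun t : ℝ => Real.sqrt t) (1 / (2 * Real.sqrt (‖v‖ ^ 2))) (‖v‖ ^ 2) :=
      Real.hasDerivAt_sqrt (by positivity)
    have hsq : Real.sqrt (‖v‖ ^ 2) = ‖v‖ := Real.sqrt_sq hn.le
    have := (hs.inv (by rw [hsq]; exact hn.ne')).pow 3
    refine this.congr_deriv ?_
    simp only [Pi.inv_apply, hsq]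
    field_simp
    norm_num
    field_simp
  have h3 := h2.comp_hasFDerivAt v h1
  refine (h3.congr_fderiv ?_).congr_of_eventuallyEq ?_
  · ext w
    simp
    ring
  · filter_upwards with w
    simp [Real.sqrt_sq (norm_nonneg w)]

lemma hasFDerivAt_q (v : E3) (hv : v ≠ 0) :
    HasFDerivAt q ((‖v‖⁻¹ ^ 3) • ContinuousLinearMap.id ℝ E3 +
      ((-3 * ‖v‖⁻¹ ^ 5) • innerSL ℝ v).smulRight v) v := by
  have := (hasFDerivAt_inv_norm_cube v hv).smul (hasFDerivAt_id v)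
  exact this

lemma contDiffAt_q (v : E3) (hv : v ≠ 0) : ContDiffAt ℝ 1 q v := by
  have h1 : ContDiffAt ℝ 1 (fun w : E3 => ‖w‖) v := contDiffAt_norm ℝ hv
  have h2 : ContDiffAt ℝ 1 (fun w : E3 => ‖w‖⁻¹ ^ 3) v :=
    (h1.inv (norm_ne_zero_iff.mpr hv)).pow 3
  exact h2.smul contDiffAt_id

/-- `K h = h - 3 ⟪e₁, h⟫ e₁`. -/
noncomputable def K : E3 →L[ℝ] E3 :=
  ContinuousLinearMap.id ℝ E3 + ((-3 : ℝ) • innerSL ℝ e₁).smulRight e₁

lemma K_apply (h : E3) : K h = h - (3 * inner ℝ e₁ h : ℝ) • e₁ := by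
  simp [K, sub_eq_add_neg]

lemma inner_K (h : E3) : inner ℝ e₁ (K h) = -2 * inner ℝ e₁ h := by
  rw [K_apply, inner_sub_right, inner_smul_right, inner_e₁_e₁]
  ring

lemma K_of_inner_zero (h : E3) (hh : inner ℝ e₁ h = 0) : K h = h := by
  rw [K_apply, hh]; simp

lemma e₁_ne : e₁ ≠ 0 := by
  rw [← norm_ne_zero_iff, norm_e₁]; norm_num

lemma hq_e : HasFDerivAt q K e₁ := by
  have := hasFDerivAt_q e₁ e₁_ne
  refine this.congr_fderiv ?_
  rw [norm_e₁]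
  ext h : 1
  simp [K]

lemma hq_neg : HasFDerivAt q K (-e₁) := by
  have := hasFDerivAt_q (-e₁) (neg_ne_zero.mpr e₁_ne)
  refine this.congr_fderiv ?_
  rw [norm_neg, norm_e₁]
  ext h : 1
  simp [K]

lemma hq_two : HasFDerivAt q ((1 / 8 : ℝ) • K) ((2 : ℝ) • e₁) := by
  have := hasFDerivAt_q ((2 : ℝ) • e₁) (smul_ne_zero (by norm_num) e₁_ne)
  refine this.congr_fderiv ?_
  rw [norm_smul, norm_e₁]
  ext h : 1
  simp only [K, ContinuousLinearMap.smulRight_apply, add_apply, smul_apply,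
    ContinuousLinearMap.id_apply, innerSL_apply_apply, inner_smul_left, smul_eq_mul, smul_smul,
    smul_add]
  norm_num
  module

/-- Triple space. -/
abbrev T3 : Type := E3 × E3 × E3

noncomputable def P₀ : T3 := (0, e₁, -e₁)

noncomputable def F1 (p : T3) : E3 := Φ1 p.1 p.2.1 p.2.2
noncomputable def F3 (p : T3) : E3 := Φ3 p.1 p.2.1 p.2.2

noncomputable def pr1 : T3 →L[ℝ] E3 := ContinuousLinearMap.fst ℝ E3 (E3 × E3)
noncomputable def pr2 : T3 →L[ℝ] E3 :=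
  (ContinuousLinearMap.fst ℝ E3 E3).comp (ContinuousLinearMap.snd ℝ E3 (E3 × E3))
noncomputable def pr3 : T3 →L[ℝ] E3 :=
  (ContinuousLinearMap.snd ℝ E3 E3).comp (ContinuousLinearMap.snd ℝ E3 (E3 × E3))

@[simp] lemma pr1_apply (p : T3) : pr1 p = p.1 := rfl
@[simp] lemma pr2_apply (p : T3) : pr2 p = p.2.1 := rfl
@[simp] lemma pr3_apply (p : T3) : pr3 p = p.2.2 := rfl

noncomputable def L1 : T3 →L[ℝ] E3 :=
  K.comp (pr1 - pr2) + K.comp (pr1 - pr3) - (6 : ℝ) • pr1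

noncomputable def L3 : T3 →L[ℝ] E3 :=
  K.comp (pr1 - pr3) + ((1 / 8 : ℝ) • K).comp (pr2 - pr3) + (6 : ℝ) • pr3

lemma h12 : (pr1 - pr2) P₀ = -e₁ := by simp [P₀]
lemma h13 : (pr1 - pr3) P₀ = e₁ := by simp [P₀]
lemma h23 : (pr2 - pr3) P₀ = (2 : ℝ) • e₁ := by
  simp only [P₀, sub_apply, pr2_apply, pr3_apply]
  module

lemma hF1 : HasFDerivAt F1 L1 P₀ := by
  have a1 : HasFDerivAt (fun p => q ((pr1 - pr2) p)) (K.comp (pr1 - pr2)) P₀ := by
    apply HasFDerivAt.comp P₀ (g := q) (f := (pr1 - pr2)) _ (pr1 - pr2).hasFDerivAt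
    rw [h12]; exact hq_neg
  have a2 : HasFDerivAt (fun p => q ((pr1 - pr3) p)) (K.comp (pr1 - pr3)) P₀ := by
    apply HasFDerivAt.comp P₀ (g := q) (f := (pr1 - pr3)) _ (pr1 - pr3).hasFDerivAt
    rw [h13]; exact hq_e
  have a3 : HasFDerivAt (fun p : T3 => (6 : ℝ) • pr1 p) ((6 : ℝ) • pr1) P₀ :=
    pr1.hasFDerivAt.const_smul (6 : ℝ)
  exact (a1.add a2).sub a3

lemma hF3 : HasFDerivAt F3 L3 P₀ := by
  have a1 : HasFDerivAt (fun p => q ((pr1 - pr3) p)) (K.comp (pr1 - pr3)) P₀ := by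
    apply HasFDerivAt.comp P₀ (g := q) (f := (pr1 - pr3)) _ (pr1 - pr3).hasFDerivAt
    rw [h13]; exact hq_e
  have a2 : HasFDerivAt (fun p => q ((pr2 - pr3) p)) (((1 / 8 : ℝ) • K).comp (pr2 - pr3)) P₀ := by
    apply HasFDerivAt.comp P₀ (g := q) (f := (pr2 - pr3)) _ (pr2 - pr3).hasFDerivAt
    rw [h23]; exact hq_two
  have a3 : HasFDerivAt (fun p : T3 => (6 : ℝ) • (pr3 p + e₁)) ((6 : ℝ) • pr3) P₀ :=
    (pr3.hasFDerivAt.add_const e₁).const_smul (6 : ℝ)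
  exact ((a1.add a2).sub_const ((5 / 4 : ℝ) • e₁)).add a3

lemma cF1 : ContDiffAt ℝ 1 F1 P₀ := by
  have a1 : ContDiffAt ℝ 1 (fun p => q ((pr1 - pr2) p)) P₀ := by
    apply ContDiffAt.comp P₀ (g := q) (f := (pr1 - pr2)) _ (pr1 - pr2).contDiff.contDiffAt
    rw [h12]; exact contDiffAt_q _ (neg_ne_zero.mpr e₁_ne)
  have a2 : ContDiffAt ℝ 1 (fun p => q ((pr1 - pr3) p)) P₀ := by
    apply ContDiffAt.comp P₀ (g := q) (f := (pr1 - pr3)) _ (pr1 - pr3).contDiff.contDiffAt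
    rw [h13]; exact contDiffAt_q _ e₁_ne
  have a3 : ContDiffAt ℝ 1 (fun p : T3 => (6 : ℝ) • pr1 p) P₀ :=
    (pr1.contDiff.const_smul (6 : ℝ)).contDiffAt
  exact (a1.add a2).sub a3

lemma cF3 : ContDiffAt ℝ 1 F3 P₀ := by
  have a1 : ContDiffAt ℝ 1 (fun p => q ((pr1 - pr3) p)) P₀ := by
    apply ContDiffAt.comp P₀ (g := q) (f := (pr1 - pr3)) _ (pr1 - pr3).contDiff.contDiffAt
    rw [h13]; exact contDiffAt_q _ e₁_ne
  have a2 : ContDiffAt ℝ 1 (fun p => q ((pr2 - pr3) p)) P₀ := by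
    apply ContDiffAt.comp P₀ (g := q) (f := (pr2 - pr3)) _ (pr2 - pr3).contDiff.contDiffAt
    rw [h23]; exact contDiffAt_q _ (smul_ne_zero (by norm_num) e₁_ne)
  have a3 : ContDiffAt ℝ 1 (fun p : T3 => (6 : ℝ) • (pr3 p + e₁)) P₀ :=
    ((pr3.contDiff.add contDiff_const).const_smul (6 : ℝ)).contDiffAt
  exact ((a1.add a2).sub contDiffAt_const).add a3

lemma F1_P₀ : F1 P₀ = 0 := by
  simp [F1, P₀, Φ1, q, norm_e₁]

lemma F3_P₀ : F3 P₀ = 0 := by
  have : e₁ - -e₁ = (2 : ℝ) • e₁ := by module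
  simp only [F3, P₀, Φ3, q, this, norm_smul, norm_e₁, sub_neg_eq_add, zero_add, neg_add_cancel,
    smul_zero, add_zero]
  norm_num
  module

/-- The two linearised equations, in components. -/
lemma L1_apply (u v w : E3) : L1 (u, v, w) = K (u - v) + K (u - w) - (6 : ℝ) • u := by
  simp [L1]

lemma L3_apply (u v w : E3) :
    L3 (u, v, w) = K (u - w) + (1 / 8 : ℝ) • K (v - w) + (6 : ℝ) • w := by
  simp [L3, smul_sub]

lemma inner_L1 (u v w : E3) (h : L1 (u, v, w) = 0) :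
    -10 * inner ℝ e₁ u + 2 * inner ℝ e₁ v + 2 * inner ℝ e₁ w = (0 : ℝ) := by
  rw [L1_apply] at h
  have := congrArg (fun x => inner ℝ e₁ x) h
  simp only [inner_sub_right, inner_add_right, inner_K, inner_smul_right, inner_zero_right] at this
  linarith

lemma inner_L3 (u v w : E3) (h : L3 (u, v, w) = 0) :
    -2 * inner ℝ e₁ u - (1 / 4) * inner ℝ e₁ v + (33 / 4) * inner ℝ e₁ w = (0 : ℝ) := by
  rw [L3_apply] at h
  have := congrArg (fun x => inner ℝ e₁ x) h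
  simp only [inner_sub_right, inner_add_right, inner_K, inner_smul_right, inner_zero_right] at this
  linarith

lemma vec_L1 (u v w : E3) (h : L1 (u, v, w) = 0) (hu : inner ℝ e₁ u = 0) (hv : inner ℝ e₁ v = 0)
    (hw : inner ℝ e₁ w = 0) : (-4 : ℝ) • u - v - w = 0 := by
  rw [L1_apply, K_of_inner_zero _ (by rw [inner_sub_right, hu, hv, sub_zero]),
    K_of_inner_zero _ (by rw [inner_sub_right, hu, hw, sub_zero])] at h
  rw [← h]; module

lemma vec_L3 (u v w : E3) (h : L3 (u, v, w) = 0) (hu : inner ℝ e₁ u = 0) (hv : inner ℝ e₁ v = 0)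
    (hw : inner ℝ e₁ w = 0) : u + (1 / 8 : ℝ) • v + (39 / 8 : ℝ) • w = 0 := by
  rw [L3_apply, K_of_inner_zero _ (by rw [inner_sub_right, hu, hw, sub_zero]),
    K_of_inner_zero _ (by rw [inner_sub_right, hv, hw, sub_zero])] at h
  rw [← h]; module

lemma inj1 (u v w : E3) (hu : u = 0) (h1 : L1 (u, v, w) = 0) (h3 : L3 (u, v, w) = 0) :
    (u, v, w) = (0 : T3) := by
  subst hu
  have i1 := inner_L1 _ _ _ h1
  have i3 := inner_L3 _ _ _ h3
  rw [inner_zero_right] at i1 i3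
  have hv : inner ℝ e₁ v = (0 : ℝ) := by linarith
  have hw : inner ℝ e₁ w = (0 : ℝ) := by linarith
  have e1 := vec_L1 _ _ _ h1 (inner_zero_right _) hv hw
  have e3 := vec_L3 _ _ _ h3 (inner_zero_right _) hv hw
  have w0 : w = 0 := by linear_combination (norm := module) (4 / 19 : ℝ) • e3 + (1 / 38 : ℝ) • e1
  have v0 : v = 0 := by linear_combination (norm := module) -e1 - w0
  rw [v0, w0]; rfl

lemma inj2 (u v w : E3) (hv : v = 0) (h1 : L1 (u, v, w) = 0) (h3 : L3 (u, v, w) = 0) :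
    (u, v, w) = (0 : T3) := by
  subst hv
  have i1 := inner_L1 _ _ _ h1
  have i3 := inner_L3 _ _ _ h3
  rw [inner_zero_right] at i1 i3
  have hu : inner ℝ e₁ u = (0 : ℝ) := by linarith
  have hw : inner ℝ e₁ w = (0 : ℝ) := by linarith
  have e1 := vec_L1 _ _ _ h1 hu (inner_zero_right _) hw
  have e3 := vec_L3 _ _ _ h3 hu (inner_zero_right _) hw
  have w0 : w = 0 := by linear_combination (norm := module) (8 / 37 : ℝ) • e3 + (2 / 37 : ℝ) • e1
  have u0 : u = 0 := by linear_combination (norm := module) e3 - (39 / 8 : ℝ) • w0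
  rw [u0, w0]; rfl

lemma inj3 (u v w : E3) (hw : w = 0) (h1 : L1 (u, v, w) = 0) (h3 : L3 (u, v, w) = 0) :
    (u, v, w) = (0 : T3) := by
  subst hw
  have i1 := inner_L1 _ _ _ h1
  have i3 := inner_L3 _ _ _ h3
  rw [inner_zero_right] at i1 i3
  have hu : inner ℝ e₁ u = (0 : ℝ) := by linarith
  have hv : inner ℝ e₁ v = (0 : ℝ) := by linarith
  have e1 := vec_L1 _ _ _ h1 hu hv (inner_zero_right _)
  have e3 := vec_L3 _ _ _ h3 hu hv (inner_zero_right _)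
  have u0 : u = 0 := by linear_combination (norm := module) (2 : ℝ) • e3 + (1 / 4 : ℝ) • e1
  have v0 : v = 0 := by linear_combination (norm := module) -e1 - (4 : ℝ) • u0
  rw [u0, v0]; rfl

/-- The residual `c - φA - φC`. -/
noncomputable def hval (p : T3) : ℝ := cR p.1 p.2.1 p.2.2 - φA p.1 - φC p.2.2

lemma hval_P₀ : hval P₀ = 6 / 10 := by
  have : e₁ - -e₁ = (2 : ℝ) • e₁ := by module
  simp only [hval, P₀, cR, φA, φC, this, norm_smul, norm_e₁, zero_sub, norm_neg, neg_add_cancel,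
    inner_zero_right, norm_zero, neg_neg]
  norm_num

lemma continuousAt_hval : ContinuousAt hval P₀ := by
  unfold hval cR φA φC
  have h1 : ‖P₀.1 - P₀.2.1‖ ≠ 0 := by
    have := h12
    simp only [sub_apply, pr1_apply, pr2_apply] at this
    rw [this, norm_neg, norm_e₁]; norm_num
  have h2 : ‖P₀.1 - P₀.2.2‖ ≠ 0 := by
    have := h13
    simp only [sub_apply, pr1_apply, pr3_apply] at this
    rw [this, norm_e₁]; norm_num
  have h3 : ‖P₀.2.1 - P₀.2.2‖ ≠ 0 := by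
    have := h23
    simp only [sub_apply, pr2_apply, pr3_apply] at this
    rw [this, norm_smul, norm_e₁]; norm_num
  have c1 : ContinuousAt (fun p : T3 => ‖p.1 - p.2.1‖⁻¹) P₀ :=
    ContinuousAt.inv₀ (by fun_prop) h1
  have c2 : ContinuousAt (fun p : T3 => ‖p.1 - p.2.2‖⁻¹) P₀ :=
    ContinuousAt.inv₀ (by fun_prop) h2
  have c3 : ContinuousAt (fun p : T3 => ‖p.2.1 - p.2.2‖⁻¹) P₀ :=
    ContinuousAt.inv₀ (by fun_prop) h3
  have c4 : ContinuousAt (fun p : T3 => (13 / 10 - 3 * ‖p.1‖ ^ 2 : ℝ)) P₀ := by fun_prop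
  have c5 : ContinuousAt (fun p : T3 =>
      (6 / 10 + 5 / 4 * inner ℝ e₁ (p.2.2 + e₁) - 3 * ‖p.2.2 + e₁‖ ^ 2 : ℝ)) P₀ := by fun_prop
  exact (((c1.add c2).add c3).sub c4).sub c5

lemma exists_local : ∃ (ε : ℝ) (Y Z G H : E3 → E3), 0 < ε ∧ ε ≤ 1 / 1000 ∧
    ContinuousOn Y (Metric.ball 0 ε) ∧ ContinuousOn Z (Metric.ball 0 ε) ∧
    DifferentiableOn ℝ G (Y '' Metric.ball 0 ε) ∧ DifferentiableOn ℝ H (Z '' Metric.ball 0 ε) ∧
    ∀ x ∈ Metric.ball (0 : E3) ε, ‖Y x - e₁‖ ≤ 1 / 1000 ∧ ‖Z x + e₁‖ ≤ 1 / 1000 ∧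
      Φ1 x (Y x) (Z x) = 0 ∧ Φ3 x (Y x) (Z x) = 0 ∧ G (Y x) = x ∧ H (Z x) = x ∧
      |cR x (Y x) (Z x) - φA x - φC (Z x) - 6 / 10| ≤ 1 / 100 := by
  -- the three charts
  obtain ⟨g₁, cg₁, ag₁, -, rg₁⟩ := ift (fun p : T3 => ((p.1, F1 p, F3 p) : T3))
    (pr1.prod (L1.prod L3)) P₀ (contDiffAt_fst.prodMk (cF1.prodMk cF3))
    (pr1.hasFDerivAt.prodMk (hF1.prodMk hF3))
    (by
      rintro ⟨u, v, w⟩ h
      simp only [ContinuousLinearMap.prod_apply, pr1_apply, Prod.mk_eq_zero] at h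
      exact inj1 u v w h.1 h.2.1 h.2.2)
  obtain ⟨g₂, cg₂, -, lg₂, -⟩ := ift (fun p : T3 => ((p.2.1, F1 p, F3 p) : T3))
    (pr2.prod (L1.prod L3)) P₀ ((pr2.contDiff.contDiffAt (x := P₀)).prodMk (cF1.prodMk cF3))
    (pr2.hasFDerivAt.prodMk (hF1.prodMk hF3))
    (by
      rintro ⟨u, v, w⟩ h
      simp only [ContinuousLinearMap.prod_apply, pr2_apply, Prod.mk_eq_zero] at h
      exact inj2 u v w h.1 h.2.1 h.2.2)
  obtain ⟨g₃, cg₃, -, lg₃, -⟩ := ift (fun p : T3 => ((p.2.2, F1 p, F3 p) : T3))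
    (pr3.prod (L1.prod L3)) P₀ ((pr3.contDiff.contDiffAt (x := P₀)).prodMk (cF1.prodMk cF3))
    (pr3.hasFDerivAt.prodMk (hF1.prodMk hF3))
    (by
      rintro ⟨u, v, w⟩ h
      simp only [ContinuousLinearMap.prod_apply, pr3_apply, Prod.mk_eq_zero] at h
      exact inj3 u v w h.1 h.2.1 h.2.2)
  have v1 : ((P₀.1, F1 P₀, F3 P₀) : T3) = (0, 0, 0) := by rw [F1_P₀, F3_P₀]; rfl
  have v2 : ((P₀.2.1, F1 P₀, F3 P₀) : T3) = (e₁, 0, 0) := by rw [F1_P₀, F3_P₀]; rfl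
  have v3 : ((P₀.2.2, F1 P₀, F3 P₀) : T3) = (-e₁, 0, 0) := by rw [F1_P₀, F3_P₀]; rfl
  simp only [v1] at cg₁ ag₁ rg₁
  simp only [v2] at cg₂
  simp only [v3] at cg₃
  -- the curve of contact triples
  set Fx : E3 → T3 := fun x => g₁ (x, 0, 0) with hFx
  have ι : ∀ a : E3, Continuous (fun x : E3 => ((x, 0, 0) : T3)) := fun _ => by fun_prop
  have tι : ∀ a : E3, Tendsto (fun x : E3 => ((x, 0, 0) : T3)) (𝓝 a) (𝓝 (a, 0, 0)) :=
    fun a => (ι a).continuousAt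
  have hFx0 : ContinuousAt Fx 0 :=
    ContinuousAt.comp (f := fun x : E3 => ((x, 0, 0) : T3)) cg₁.continuousAt (ι 0).continuousAt
  have tFx : Tendsto Fx (𝓝 0) (𝓝 P₀) := by
    have h0 : Fx 0 = P₀ := ag₁
    have := hFx0.tendsto
    rwa [h0] at this
  have E1 : ∀ᶠ x : E3 in 𝓝 0, ((Fx x).1, F1 (Fx x), F3 (Fx x)) = ((x, 0, 0) : T3) :=
    (tι 0).eventually rg₁
  have E2 : ∀ᶠ x : E3 in 𝓝 0, ContinuousAt Fx x := by
    have := (tι 0).eventually (cg₁.eventually (by simp))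
    filter_upwards [this] with x hx
    exact ContinuousAt.comp (f := fun x : E3 => ((x, 0, 0) : T3)) hx.continuousAt
      (ι x).continuousAt
  have E3' : ∀ᶠ x : E3 in 𝓝 0, g₂ ((Fx x).2.1, F1 (Fx x), F3 (Fx x)) = Fx x :=
    tFx.eventually lg₂
  have E4 : ∀ᶠ x : E3 in 𝓝 0, g₃ ((Fx x).2.2, F1 (Fx x), F3 (Fx x)) = Fx x :=
    tFx.eventually lg₃
  have E5 : ∀ᶠ x : E3 in 𝓝 0, ContDiffAt ℝ 1 g₂ ((Fx x).2.1, 0, 0) := by
    have t : Tendsto (fun x : E3 => (((Fx x).2.1, 0, 0) : T3)) (𝓝 0) (𝓝 (e₁, 0, 0)) := by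
      have : Continuous (fun p : T3 => ((p.2.1, 0, 0) : T3)) := by fun_prop
      exact (this.continuousAt (x := P₀)).tendsto.comp tFx
    exact t.eventually (cg₂.eventually (by simp))
  have E6 : ∀ᶠ x : E3 in 𝓝 0, ContDiffAt ℝ 1 g₃ ((Fx x).2.2, 0, 0) := by
    have t : Tendsto (fun x : E3 => (((Fx x).2.2, 0, 0) : T3)) (𝓝 0) (𝓝 (-e₁, 0, 0)) := by
      have : Continuous (fun p : T3 => ((p.2.2, 0, 0) : T3)) := by fun_prop
      exact (this.continuousAt (x := P₀)).tendsto.comp tFx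
    exact t.eventually (cg₃.eventually (by simp))
  have E7 : ∀ᶠ x : E3 in 𝓝 0, ‖(Fx x).2.1 - e₁‖ < 1 / 1000 := by
    apply tFx.eventually (p := fun p => ‖p.2.1 - e₁‖ < 1 / 1000)
    have : Continuous (fun p : T3 => ‖p.2.1 - e₁‖) := by fun_prop
    apply this.continuousAt.eventually_lt continuousAt_const
    simp [P₀]
  have E8 : ∀ᶠ x : E3 in 𝓝 0, ‖(Fx x).2.2 + e₁‖ < 1 / 1000 := by
    apply tFx.eventually (p := fun p => ‖p.2.2 + e₁‖ < 1 / 1000)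
    have : Continuous (fun p : T3 => ‖p.2.2 + e₁‖) := by fun_prop
    apply this.continuousAt.eventually_lt continuousAt_const
    simp [P₀]
  have E9 : ∀ᶠ x : E3 in 𝓝 0, |hval (Fx x) - 6 / 10| < 1 / 100 := by
    apply tFx.eventually (p := fun p => |hval p - 6 / 10| < 1 / 100)
    have : ContinuousAt (fun p : T3 => |hval p - 6 / 10|) P₀ :=
      (continuousAt_hval.sub continuousAt_const).abs
    apply this.eventually_lt continuousAt_const
    rw [hval_P₀]; norm_num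
  have E0 := E1.and (E2.and (E3'.and (E4.and (E5.and (E6.and (E7.and (E8.and E9)))))))
  rw [Metric.eventually_nhds_iff_ball] at E0
  obtain ⟨ε₀, hε₀, hE⟩ := E0
  refine ⟨min ε₀ (1 / 1000), fun x => (Fx x).2.1, fun x => (Fx x).2.2,
    fun y => (g₂ (y, 0, 0)).1, fun z => (g₃ (z, 0, 0)).1, by positivity, min_le_right _ _,
    ?_, ?_, ?_, ?_, ?_⟩
  · intro x hx
    have hx' := hE x (Metric.ball_subset_ball (min_le_left _ _) hx)
    have := hx'.2.1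
    exact (this.snd.fst).continuousWithinAt
  · intro x hx
    have hx' := hE x (Metric.ball_subset_ball (min_le_left _ _) hx)
    have := hx'.2.1
    exact (this.snd.snd).continuousWithinAt
  · rintro _ ⟨x, hx, rfl⟩
    have hx' := hE x (Metric.ball_subset_ball (min_le_left _ _) hx)
    have h5 := hx'.2.2.2.2.1
    have hd : DifferentiableAt ℝ g₂ ((Fx x).2.1, 0, 0) := h5.differentiableAt one_ne_zero
    have hι : DifferentiableAt ℝ (fun y : E3 => ((y, 0, 0) : T3)) ((Fx x).2.1) := by fun_prop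
    have hc : DifferentiableAt ℝ (fun y : E3 => g₂ (y, 0, 0)) ((Fx x).2.1) :=
      DifferentiableAt.comp (g := g₂) _ hd hι
    exact hc.fst.differentiableWithinAt
  · rintro _ ⟨x, hx, rfl⟩
    have hx' := hE x (Metric.ball_subset_ball (min_le_left _ _) hx)
    have h5 := hx'.2.2.2.2.2.1
    have hd : DifferentiableAt ℝ g₃ ((Fx x).2.2, 0, 0) := h5.differentiableAt one_ne_zero
    have hι : DifferentiableAt ℝ (fun y : E3 => ((y, 0, 0) : T3)) ((Fx x).2.2) := by fun_prop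
    have hc : DifferentiableAt ℝ (fun y : E3 => g₃ (y, 0, 0)) ((Fx x).2.2) :=
      DifferentiableAt.comp (g := g₃) _ hd hι
    exact hc.fst.differentiableWithinAt
  · intro x hx
    obtain ⟨k1, -, k3, k4, -, -, k7, k8, k9⟩ :=
      hE x (Metric.ball_subset_ball (min_le_left _ _) hx)
    simp only [Prod.mk.injEq] at k1
    obtain ⟨m1, m2, m3⟩ := k1
    rw [m2, m3] at k3 k4
    have m2' : Φ1 (Fx x).1 (Fx x).2.1 (Fx x).2.2 = 0 := m2
    have m3' : Φ3 (Fx x).1 (Fx x).2.1 (Fx x).2.2 = 0 := m3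
    rw [m1] at m2' m3'
    have k9' : |cR (Fx x).1 (Fx x).2.1 (Fx x).2.2 - φA (Fx x).1 - φC (Fx x).2.2 - 6 / 10|
      < 1 / 100 := k9
    rw [m1] at k9'
    refine ⟨k7.le, k8.le, m2', m3', ?_, ?_, k9'.le⟩
    · show (g₂ ((Fx x).2.1, 0, 0)).1 = x
      rw [k3, m1]
    · show (g₃ ((Fx x).2.2, 0, 0)).1 = x
      rw [k4, m1]

end Vale.Agent.P121
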